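import Vale.Agent.P068.Insert

/-! The continuum hypothesis implies the splitting hypothesis. -/

namespace Vale.Agent.P068

open Set

theorem split_countable (R : ℕ → Set ℕ) (hR : ∀ n, (R n).Infinite) :
    ∃ S : Set ℕ, ∀ n, (R n ∩ S).Infinite ∧ (R n \ S).Infinite := by
  classical
  -- enumerate each index infinitely often
  let idx : ℕ → ℕ := fun m => (Nat.unpair (m / 2)).1
  have hex : ∀ (m a : ℕ), ∃ b ∈ R (idx m), a < b := fun m a => (hR (idx m)).exists_gt a
  choose g hgR hglt using hex
  let c : ℕ → ℕ := fun m => Nat.rec (g 0 0) (fun k ck => g (k + 1) ck) m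
  have hc0 : c 0 = g 0 0 := rfl
  have hcs : ∀ k, c (k + 1) = g (k + 1) (c k) := fun k => rfl
  have hcR : ∀ m, c m ∈ R (idx m) := by
    intro m
    cases m with
    | zero => rw [hc0]; exact hgR 0 0
    | succ k => rw [hcs]; exact hgR _ _
  have hmono : StrictMono c := strictMono_nat_of_lt_succ (fun k => by rw [hcs]; exact hglt _ _)
  refine ⟨Set.range (fun n => c (2 * n)), ?_⟩
  intro n
  constructor
  · have hinf : (Set.range (fun k => c (2 * Nat.pair n k))).Infinite := by
      apply Set.infinite_range_of_injective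
      intro a b hab
      have h1 := hmono.injective hab
      have h2 : Nat.pair n a = Nat.pair n b := by
        have : 2 * Nat.pair n a = 2 * Nat.pair n b := h1
        omega
      exact (Nat.pair_eq_pair.1 h2).2
    refine hinf.mono ?_
    rintro _ ⟨k, rfl⟩
    refine ⟨?_, ⟨Nat.pair n k, rfl⟩⟩
    have := hcR (2 * Nat.pair n k)
    have e : idx (2 * Nat.pair n k) = n := by
      simp only [idx]
      rw [Nat.mul_div_cancel_left _ (by norm_num), Nat.unpair_pair]
    rw [e] at this
    exact this
  · have hinf : (Set.range (fun k => c (2 * Nat.pair n k + 1))).Infinite := by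
      apply Set.infinite_range_of_injective
      intro a b hab
      have h1 : 2 * Nat.pair n a + 1 = 2 * Nat.pair n b + 1 := hmono.injective hab
      have h2 : Nat.pair n a = Nat.pair n b := by omega
      exact (Nat.pair_eq_pair.1 h2).2
    refine hinf.mono ?_
    rintro _ ⟨k, rfl⟩
    refine ⟨?_, ?_⟩
    · have := hcR (2 * Nat.pair n k + 1)
      have e : idx (2 * Nat.pair n k + 1) = n := by
        simp only [idx]
        rw [show (2 * Nat.pair n k + 1) / 2 = Nat.pair n k by omega, Nat.unpair_pair]
      rw [e] at this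
      exact this
    · rintro ⟨j, hj⟩
      have : 2 * j = 2 * Nat.pair n k + 1 := hmono.injective hj
      omega

theorem splitHyp_of_CH (h : Cardinal.aleph.{0} 1 = Cardinal.continuum.{0}) : SplitHyp := by
  intro Q hQ hinf
  rw [← h] at hQ
  have hcount : Q.Countable := by
    rw [← Set.countable_coe_iff, ← Cardinal.mk_le_aleph0_iff]
    rw [← Order.lt_succ_iff, Cardinal.succ_aleph0]
    exact hQ
  rcases Q.eq_empty_or_nonempty with rfl | hne
  · exact ⟨∅, fun A hA => absurd hA (notMem_empty _)⟩
  obtain ⟨R, hR⟩ := hcount.exists_eq_range hne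
  have hRinf : ∀ n, (R n).Infinite := fun n => hinf _ (by rw [hR]; exact ⟨n, rfl⟩)
  obtain ⟨S, hS⟩ := split_countable R hRinf
  refine ⟨S, ?_⟩
  intro A hA
  rw [hR] at hA
  obtain ⟨n, rfl⟩ := hA
  exact hS n

end Vale.Agent.P068
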