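import Vale.Agent.P068.Recursion

/-! Properties of the block matroid and the impossible chain. -/

namespace Vale.Agent.P068

open Set

/-- The set with left trace `z` and right trace the complement of `w`. -/
def mk2 (z w : Set ℕ) : Set (ℕ ⊕ ℕ) := {x | (∃ n ∈ z, x = Sum.inl n) ∨ (∃ n, n ∉ w ∧ x = Sum.inr n)}

@[simp] theorem zs_mk2 (z w : Set ℕ) : zs (mk2 z w) = z := by
  ext n
  constructor
  · rintro (⟨m, hm, h⟩ | ⟨m, -, h⟩)
    · have : n = m := by simpa using h
      rw [this]; exact hm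
    · simp at h
  · intro h; exact Or.inl ⟨n, h, rfl⟩

@[simp] theorem ws_mk2 (z w : Set ℕ) : ws (mk2 z w) = w := by
  ext n
  constructor
  · intro h
    by_contra hcon
    exact h (Or.inr ⟨n, hcon, rfl⟩)
  · rintro h (⟨m, -, h'⟩ | ⟨m, hm, h'⟩)
    · simp at h'
    · have : n = m := by simpa using h'
      rw [this] at h
      exact hm h

theorem mk2_zs_ws (X : Set (ℕ ⊕ ℕ)) : mk2 (zs X) (ws X) = X := by
  ext x
  rcases x with n | n
  · constructor
    · rintro (⟨m, hm, h⟩ | ⟨m, -, h⟩)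
      · rw [h]; exact hm
      · simp at h
    · intro h; exact Or.inl ⟨n, h, rfl⟩
  · constructor
    · rintro (⟨m, -, h⟩ | ⟨m, hm, h⟩)
      · simp at h
      · rw [h]; by_contra hcon; exact hm hcon
    · intro h; exact Or.inr ⟨n, fun hcon => hcon h, rfl⟩

theorem ncard_sum {X : Set (ℕ ⊕ ℕ)} (h : X.Finite) :
    X.ncard = {n : ℕ | Sum.inl n ∈ X}.ncard + {n : ℕ | Sum.inr n ∈ X}.ncard := by
  have e : X = (Sum.inl '' {n : ℕ | Sum.inl n ∈ X}) ∪ (Sum.inr '' {n : ℕ | Sum.inr n ∈ X}) := by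
    ext x
    rcases x with n | n
    · simp
    · simp
  have hd : Disjoint (Sum.inl '' {n : ℕ | Sum.inl n ∈ X} : Set (ℕ ⊕ ℕ))
      (Sum.inr '' {n : ℕ | Sum.inr n ∈ X}) := by
    rw [Set.disjoint_left]
    rintro _ ⟨n, -, rfl⟩ ⟨m, -, hm⟩
    simp at hm
  conv_lhs => rw [e]
  rw [Set.ncard_union_eq hd ((trace_l_finite h).image _) ((trace_r_finite h).image _),
    Set.ncard_image_of_injective _ Sum.inl_injective,
    Set.ncard_image_of_injective _ Sum.inr_injective]

/-- The three properties used in the chain argument. -/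
structure ChainProps (D : UData (ℕ ⊕ ℕ)) : Prop where
  c1 : ∀ X, D.Sp X → (zs X).Finite → (ws X).Finite ∧ (ws X).ncard + 1 ≤ (zs X).ncard
  c2 : ∀ X : ℕ → Set (ℕ ⊕ ℕ), (∀ n, D.Ind (X n)) → (∀ n, ws (X n) = zs (X (n + 1))) →
    (zs (X 0)).Finite
  c3 : ∀ X, D.Ind X → zs X ≠ univ

theorem finite_of_diff {α : Type*} {A B : Set α} (h : (A \ B).Finite) (hB : B.Finite) :
    A.Finite := by
  refine (h.union hB).subset ?_
  intro x hx
  by_cases h0 : x ∈ B
  · exact Or.inr h0
  · exact Or.inl ⟨hx, h0⟩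

theorem exists_udata (hs : SplitHyp) : ∃ D : UData (ℕ ⊕ ℕ), ChainProps D := by
  classical
  obtain ⟨R, h0, h1, hval, hsol⟩ := exists_family hs
  let D : UData (ℕ ⊕ ℕ) :=
    { fam := Prod.fst '' R
      nonempty := ⟨_, ⟨_, h0, rfl⟩⟩
      anti := by
        rintro _ ⟨p, hp, rfl⟩ _ ⟨q, hq, rfl⟩
        exact (hval p hp q hq).1
      solved := by
        intro I X hIX
        rcases hsol I X hIX with ⟨p, hp, h⟩ | ⟨p, hp, h⟩ | ⟨p, hp, h⟩
        · exact Or.inl ⟨p.1, ⟨p, hp, rfl⟩, h⟩
        · exact Or.inr (Or.inl ⟨p.1, ⟨p, hp, rfl⟩, h⟩)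
        · exact Or.inr (Or.inr ⟨p.1, ⟨p, hp, rfl⟩, h⟩) }
  have zzero : zs Bzero = {0} := by
    ext n
    constructor
    · rintro (h | ⟨m, h⟩)
      · simpa using h
      · simp at h
    · intro h
      have : n = 0 := h
      subst this
      exact Or.inl rfl
  refine ⟨D, ⟨?_, ?_, ?_⟩⟩
  · -- c1
    rintro X ⟨_, ⟨p, hp, rfl⟩, hsp⟩ hz
    have hzp : (zs p.1).Finite := finite_of_diff (zs_diff hsp.1) hz
    have f1 : (p.1 \ Bzero).Finite := by
      refine finite_of_traces ?_ ?_
      · exact hzp.subset (fun n hn => hn.1)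
      · refine finite_empty.subset ?_
        rintro n ⟨-, hn⟩
        exact hn (Or.inr ⟨n, rfl⟩)
    have e1 := (hval p hp _ h0).1 f1
    have f2 : (Bzero \ p.1).Finite := finite_of_encard_eq f1 e1
    have hwp : (ws p.1).Finite := by
      refine (trace_r_finite f2).subset ?_
      intro n hn
      exact ⟨Or.inr ⟨n, rfl⟩, hn⟩
    have hwX : (ws X).Finite := finite_of_diff (ws_diff hsp.1) hwp
    refine ⟨hwX, ?_⟩
    rw [encard_eq_iff_ncard f1 f2, ncard_sum f1, ncard_sum f2] at e1
    have s1 : {n : ℕ | Sum.inl n ∈ p.1 \ Bzero} = zs p.1 \ {0} := by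
      rw [← zzero]; rfl
    have s2 : {n : ℕ | Sum.inr n ∈ p.1 \ Bzero} = ∅ := by
      ext n
      constructor
      · rintro ⟨-, hn⟩; exact absurd (Or.inr ⟨n, rfl⟩) hn
      · intro h; exact absurd h (notMem_empty _)
    have s3 : {n : ℕ | Sum.inl n ∈ Bzero \ p.1} = {0} \ zs p.1 := by
      rw [← zzero]; rfl
    have s4 : {n : ℕ | Sum.inr n ∈ Bzero \ p.1} = ws p.1 := by
      ext n
      constructor
      · rintro ⟨-, hn⟩; exact hn
      · intro hn; exact ⟨Or.inr ⟨n, rfl⟩, hn⟩
    rw [s1, s2, s3, s4, Set.ncard_empty] at e1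
    have i1 := Set.ncard_inter_add_ncard_sdiff_eq_ncard (zs p.1) {0} hzp
    have i2 := Set.ncard_inter_add_ncard_sdiff_eq_ncard ({0} : Set ℕ) (zs p.1) (finite_singleton 0)
    rw [Set.ncard_singleton] at i2
    rw [Set.inter_comm] at i2
    -- now (zs p).ncard = (ws p).ncard + 1
    have hX1 : (X \ p.1).Finite := by
      refine finite_of_traces ?_ ?_
      · exact hz.subset (fun n hn => hn.1)
      · refine hwp.subset ?_
        rintro n ⟨-, hn⟩
        exact hn
    have e2 := (encard_le_iff_ncard hsp.1 hX1).1 hsp.2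
    rw [ncard_sum hsp.1, ncard_sum hX1] at e2
    have t1 : {n : ℕ | Sum.inl n ∈ p.1 \ X} = zs p.1 \ zs X := rfl
    have t2 : {n : ℕ | Sum.inr n ∈ p.1 \ X} = ws X \ ws p.1 := by
      ext n
      constructor
      · rintro ⟨h1, h2⟩; exact ⟨h2, fun h => h h1⟩
      · rintro ⟨h1, h2⟩; exact ⟨not_not.1 h2, h1⟩
    have t3 : {n : ℕ | Sum.inl n ∈ X \ p.1} = zs X \ zs p.1 := rfl
    have t4 : {n : ℕ | Sum.inr n ∈ X \ p.1} = ws p.1 \ ws X := by
      ext n
      constructor
      · rintro ⟨h1, h2⟩; exact ⟨h2, fun h => h h1⟩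
      · rintro ⟨h1, h2⟩; exact ⟨not_not.1 h2, h1⟩
    rw [t1, t2, t3, t4] at e2
    have j1 := Set.ncard_inter_add_ncard_sdiff_eq_ncard (zs p.1) (zs X) hzp
    have j2 := Set.ncard_inter_add_ncard_sdiff_eq_ncard (zs X) (zs p.1) hz
    rw [Set.inter_comm] at j2
    have j3 := Set.ncard_inter_add_ncard_sdiff_eq_ncard (ws p.1) (ws X) hwp
    have j4 := Set.ncard_inter_add_ncard_sdiff_eq_ncard (ws X) (ws p.1) hwX
    rw [Set.inter_comm] at j4
    omega
  · -- c2
    intro X hI hw
    by_contra hinf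
    have hex : ∀ n, ∃ p ∈ R, IndW p.1 (X n) := by
      intro n
      obtain ⟨_, ⟨p, hp, rfl⟩, h⟩ := hI n
      exact ⟨p, hp, h⟩
    choose p hpR hp using hex
    have hz : ∀ n, (zs (X n)).Infinite ∧ (ws (p n).1).Infinite := by
      intro n
      induction n with
      | zero =>
        refine ⟨hinf, ?_⟩
        refine ws_infinite_of_anti (hval _ h0 _ (hpR 0)).1 ?_
        intro h
        exact hinf (finite_of_diff (zs_diff (hp 0).1) h)
      | succ n ih =>
        have h2 : (zs (X (n + 1))).Infinite := by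
          rw [← hw n]
          intro h
          exact ih.2 (finite_of_diff (ws_diff (hp n).1) h)
        refine ⟨h2, ?_⟩
        refine ws_infinite_of_anti (hval _ h0 _ (hpR (n + 1))).1 ?_
        intro h
        exact h2 (finite_of_diff (zs_diff (hp (n + 1)).1) h)
    have hdec : ∀ n, (p (n + 1)).2 < (p n).2 := by
      intro n
      refine (hval _ (hpR n) _ (hpR (n + 1))).2 ⟨(hz n).2, ?_⟩
      have a1 := ws_diff (hp n).1
      have a2 := zs_diff (hp (n + 1)).1
      rw [hw n] at a1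
      exact diff_trans a1 a2
    obtain ⟨m, ⟨n, rfl⟩, hmin⟩ := WellFounded.has_min (wellFounded_lt (α := Ordinal.{0}))
      (Set.range (fun n => (p n).2)) ⟨_, ⟨0, rfl⟩⟩
    exact hmin _ ⟨n + 1, rfl⟩ (hdec n)
  · -- c3
    rintro X ⟨_, ⟨p, hp, rfl⟩, hind⟩ hz
    have a1 := zs_diff hind.1
    rw [hz] at a1
    have f1 : (Bone \ p.1).Finite := by
      refine finite_of_traces ?_ ?_
      · exact a1.subset (fun n hn => ⟨mem_univ _, hn.2⟩)
      · refine finite_empty.subset ?_
        rintro n ⟨⟨m, hm⟩, -⟩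
        simp at hm
    have f2 : (p.1 \ Bone).Finite := finite_of_encard_eq f1 ((hval _ h1 _ hp).1 f1)
    have a2 := zs_diff f2
    have a3 : (univ \ zs Bone).Finite := diff_trans a1 a2
    have hinf : (Set.range (fun n : ℕ => 2 * n + 1)).Infinite := by
      apply Set.infinite_range_of_injective
      intro a b hab
      simpa using hab
    refine hinf (a3.subset ?_)
    rintro _ ⟨n, rfl⟩
    refine ⟨mem_univ _, ?_⟩
    rintro ⟨m, hm⟩
    have : 2 * n + 1 = 2 * m := by simpa using hm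
    omega

namespace ChainProps

variable {D : UData (ℕ ⊕ ℕ)}

theorem asc (h : ChainProps D) (u : ℕ → Set ℕ) (hu : ∀ n, D.Ind (mk2 (u n) (u (n + 1)))) :
    (u 0).Finite := by
  have := h.c2 (fun n => mk2 (u n) (u (n + 1))) hu (by intro n; simp)
  simpa using this

theorem desc (h : ChainProps D) (u : ℕ → Set ℕ) (hu : ∀ n, D.Sp (mk2 (u n) (u (n + 1))))
    (h0 : (u 0).Finite) : False := by
  have key : ∀ n, (u n).Finite ∧ (u n).ncard + n ≤ (u 0).ncard := by
    intro n
    induction n with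
    | zero => exact ⟨h0, by simp⟩
    | succ n ih =>
      have := h.c1 _ (hu n) (by simpa using ih.1)
      simp only [zs_mk2, ws_mk2] at this
      refine ⟨this.1, ?_⟩
      have h1 := this.2
      have h2 := ih.2
      omega
  have := (key ((u 0).ncard + 1)).2
  omega

theorem chain_false (h : ChainProps D) (z : ℤ → Set ℕ) (τ : ℤ → Prop)
    (hR1 : ∀ i : ℤ, 1 ≤ i → τ i → D.Ind (mk2 (z (i - 1)) (z i)))
    (hR2 : ∀ i : ℤ, 1 ≤ i → ¬ τ i → D.Sp (mk2 (z (i - 1)) (z i)))
    (hL1 : ∀ i : ℤ, i ≤ 0 → τ i → D.Sp (mk2 (z i) (z (i - 1))))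
    (hL2 : ∀ i : ℤ, i ≤ 0 → ¬ τ i → D.Ind (mk2 (z i) (z (i - 1))))
    (t1 : ∀ i, ¬ τ i → τ (i + 1) → z i = univ)
    (t2 : ∀ i, τ i → ¬ τ (i + 1) → z i = ∅) : False := by
  have hconst : ∀ i, τ i ↔ τ (i + 1) := by
    intro i
    constructor
    · intro hi
      by_contra hi1
      have hz := t2 i hi hi1
      rcases le_or_gt i 0 with h0 | h0
      · have := h.c1 _ (hL1 i h0 hi) (by simp [hz])
        simp [hz] at this
      · have h1 : 1 ≤ i + 1 := by omega
        have h2 := hR2 (i + 1) h1 hi1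
        rw [add_sub_cancel_right] at h2
        have := h.c1 _ h2 (by simp [hz])
        simp [hz] at this
    · intro hi1
      by_contra hi
      have hz := t1 i hi hi1
      rcases le_or_gt i 0 with h0 | h0
      · exact h.c3 _ (hL2 i h0 hi) (by simp [hz])
      · have h1 : 1 ≤ i + 1 := by omega
        have h2 := hR1 (i + 1) h1 hi1
        rw [add_sub_cancel_right] at h2
        exact h.c3 _ h2 (by simp [hz])
  have hpos : ∀ n : ℕ, τ (n : ℤ) ↔ τ 0 := by
    intro n
    induction n with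
    | zero => simp
    | succ n ih =>
      rw [← ih]
      have := (hconst n).symm
      simpa using this
  have hneg : ∀ n : ℕ, τ (-(n : ℤ)) ↔ τ 0 := by
    intro n
    induction n with
    | zero => simp
    | succ n ih =>
      rw [← ih]
      have := hconst (-((n : ℤ) + 1))
      rw [show -((n : ℤ) + 1) + 1 = -(n : ℤ) by ring] at this
      push_cast
      exact this
  by_cases h0 : τ 0
  · -- right: ascending, left: descending
    have hfin : (z 0).Finite := by
      have := h.asc (fun n => z (n : ℤ)) (by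
        intro n
        have := hR1 ((n : ℤ) + 1) (by omega) (by
          have := (hpos (n + 1)).2 h0
          simpa using this)
        rw [add_sub_cancel_right] at this
        simpa using this)
      simpa using this
    refine h.desc (fun n => z (-(n : ℤ))) ?_ (by simpa using hfin)
    intro n
    have := hL1 (-(n : ℤ)) (by omega) ((hneg n).2 h0)
    rw [show -(n : ℤ) - 1 = -((n + 1 : ℕ) : ℤ) by push_cast; ring] at this
    exact this
  · have hfin : (z 0).Finite := by
      have := h.asc (fun n => z (-(n : ℤ))) (by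
        intro n
        have := hL2 (-(n : ℤ)) (by omega) (fun hc => h0 ((hneg n).1 hc))
        rw [show -(n : ℤ) - 1 = -((n + 1 : ℕ) : ℤ) by push_cast; ring] at this
        exact this)
      simpa using this
    refine h.desc (fun n => z (n : ℤ)) ?_ (by simpa using hfin)
    intro n
    have := hR2 ((n : ℤ) + 1) (by omega) (by
      intro hc
      have h1 := (hpos (n + 1)).1 (by simpa using hc)
      exact h0 h1)
    rw [add_sub_cancel_right] at this
    simpa using this

end ChainProps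

end Vale.Agent.P068
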