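import Mathlib

/-! Basic notions for the chain counterexample of P068. -/

namespace Vale.Agent.P068

open Set

/-- `X` is almost contained in `B`, with at most as many points outside as points missing. -/
def IndW {α : Type*} (B X : Set α) : Prop :=
  (X \ B).Finite ∧ (X \ B).encard ≤ (B \ X).encard

/-- `B` is almost contained in `X`, with at most as many points missing as points outside. -/
def SpW {α : Type*} (B X : Set α) : Prop :=
  (B \ X).Finite ∧ (B \ X).encard ≤ (X \ B).encard

/-- If `B` is almost contained in `B'` then the two differ by a balanced finite exchange. -/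
def Anti {α : Type*} (B B' : Set α) : Prop :=
  (B \ B').Finite → (B \ B').encard = (B' \ B).encard

section basic

variable {α : Type*} {B B' I J X Y : Set α}

theorem finite_of_encard_eq {s t : Set α} (hs : s.Finite) (h : s.encard = t.encard) :
    t.Finite := by
  rw [← Set.encard_lt_top_iff] at hs ⊢
  rwa [← h]

theorem finite_of_encard_le {s t : Set α} (hs : s.Finite) (h : t.encard ≤ s.encard) :
    t.Finite := by
  rw [← Set.encard_lt_top_iff] at hs ⊢
  exact h.trans_lt hs

theorem encard_of_infinite {s : Set α} (hs : s.Infinite) : s.encard = ⊤ := by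
  exact Set.encard_eq_top_iff.2 hs

/-- Difference of sizes through a common finite window. -/
theorem window {X Y F : Set α} (hF : F.Finite) (h1 : X \ Y ⊆ F) (h2 : Y \ X ⊆ F) :
    (X \ Y).ncard + (Y ∩ F).ncard = (Y \ X).ncard + (X ∩ F).ncard := by
  have hX : (X ∩ F).Finite := hF.subset inter_subset_right
  have hY : (Y ∩ F).Finite := hF.subset inter_subset_right
  have e1 : (X ∩ F) \ (Y ∩ F) = X \ Y := by
    ext x; constructor
    · rintro ⟨⟨hx, hf⟩, hy⟩; exact ⟨hx, fun h => hy ⟨h, hf⟩⟩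
    · rintro ⟨hx, hy⟩; exact ⟨⟨hx, h1 ⟨hx, hy⟩⟩, fun h => hy h.1⟩
  have e2 : (Y ∩ F) \ (X ∩ F) = Y \ X := by
    ext x; constructor
    · rintro ⟨⟨hx, hf⟩, hy⟩; exact ⟨hx, fun h => hy ⟨h, hf⟩⟩
    · rintro ⟨hx, hy⟩; exact ⟨⟨hx, h2 ⟨hx, hy⟩⟩, fun h => hy h.1⟩
  have a1 := Set.ncard_inter_add_ncard_sdiff_eq_ncard (X ∩ F) (Y ∩ F) hX
  have a2 := Set.ncard_inter_add_ncard_sdiff_eq_ncard (Y ∩ F) (X ∩ F) hY
  rw [e1] at a1
  rw [e2, Set.inter_comm (Y ∩ F)] at a2
  omega

/-- Additivity of the level function. -/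
theorem level_add {X Y Z : Set α} (h1 : (X \ Y).Finite) (h2 : (Y \ X).Finite)
    (h3 : (Y \ Z).Finite) (h4 : (Z \ Y).Finite) :
    (X \ Z).ncard + (Y \ X).ncard + (Z \ Y).ncard =
      (Z \ X).ncard + (X \ Y).ncard + (Y \ Z).ncard := by
  set F : Set α := (X \ Y) ∪ (Y \ X) ∪ (Y \ Z) ∪ (Z \ Y) with hFd
  have hF : F.Finite := ((h1.union h2).union h3).union h4
  have w1 := window (X := X) (Y := Y) hF (by intro x hx; simp only [hFd, mem_union]; tauto)
    (by intro x hx; simp only [hFd, mem_union]; tauto)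
  have w2 := window (X := Y) (Y := Z) hF (by intro x hx; simp only [hFd, mem_union]; tauto)
    (by intro x hx; simp only [hFd, mem_union]; tauto)
  have w3 := window (X := X) (Y := Z) hF
    (by intro x hx; simp only [hFd, mem_union, mem_sdiff] at *; tauto)
    (by intro x hx; simp only [hFd, mem_union, mem_sdiff] at *; tauto)
  omega

theorem encard_le_iff_ncard {s t : Set α} (hs : s.Finite) (ht : t.Finite) :
    s.encard ≤ t.encard ↔ s.ncard ≤ t.ncard := by
  rw [← hs.cast_ncard_eq, ← ht.cast_ncard_eq]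
  exact Nat.cast_le

theorem encard_eq_iff_ncard {s t : Set α} (hs : s.Finite) (ht : t.Finite) :
    s.encard = t.encard ↔ s.ncard = t.ncard := by
  rw [← hs.cast_ncard_eq, ← ht.cast_ncard_eq]
  exact Nat.cast_inj

theorem IndW.mono (h : IndW B J) (hIJ : I ⊆ J) : IndW B I := by
  refine ⟨h.1.subset (sdiff_subset_sdiff_left hIJ), ?_⟩
  calc (I \ B).encard ≤ (J \ B).encard := encard_le_encard (sdiff_subset_sdiff_left hIJ)
    _ ≤ (B \ J).encard := h.2
    _ ≤ (B \ I).encard := encard_le_encard (sdiff_subset_sdiff_right hIJ)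

theorem SpW.mono (h : SpW B I) (hIJ : I ⊆ J) : SpW B J := by
  refine ⟨h.1.subset (sdiff_subset_sdiff_right hIJ), ?_⟩
  calc (B \ J).encard ≤ (B \ I).encard := encard_le_encard (sdiff_subset_sdiff_right hIJ)
    _ ≤ (I \ B).encard := h.2
    _ ≤ (J \ B).encard := encard_le_encard (sdiff_subset_sdiff_left hIJ)

theorem IndW.of_subset (h : I ⊆ B) : IndW B I := by
  have : I \ B = ∅ := sdiff_eq_empty.2 h
  refine ⟨by rw [this]; exact finite_empty, by rw [this]; simp⟩

theorem SpW.of_subset (h : B ⊆ X) : SpW B X := by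
  have : B \ X = ∅ := sdiff_eq_empty.2 h
  refine ⟨by rw [this]; exact finite_empty, by rw [this]; simp⟩

/-- Unions bound for almost inclusion. -/
theorem diff_trans (h1 : (X \ Y).Finite) (h2 : (Y \ I).Finite) : (X \ I).Finite := by
  refine (h1.union h2).subset ?_
  rintro x ⟨hx, hi⟩
  by_cases hy : x ∈ Y
  · exact Or.inr ⟨hy, hi⟩
  · exact Or.inl ⟨hx, hy⟩

theorem diff_infinite_of {h1 : (X \ I).Infinite} (h2 : (Y \ I).Finite) : (X \ Y).Infinite := by
  intro h
  exact h1 (diff_trans h h2)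

/-- (F2) -/
theorem interp_below (hI : IndW B' I) (hIX : I ⊆ X) (hXI : (X \ I).Infinite)
    (hB : (B \ I).Finite) (ha : Anti B B') : SpW B' X := by
  have h1 : (B \ B').Finite := diff_trans hB hI.1
  have h2 : (B' \ B).Finite := finite_of_encard_eq h1 (ha h1)
  have h3 : (B' \ I).Finite := diff_trans h2 hB
  have h4 : (X \ B').Infinite := diff_infinite_of (h1 := hXI) h3
  refine ⟨h3.subset (sdiff_subset_sdiff_right hIX), ?_⟩
  rw [encard_of_infinite h4]
  exact le_top

/-- (F3) -/
theorem interp_above (hIX : I ⊆ X) (hXI : (X \ I).Infinite)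
    (hB : (X \ B).Finite) (hX : ¬ IndW B X) : IndW B I ∧ SpW B X := by
  have h0 : ¬ (X \ B).encard ≤ (B \ X).encard := fun h => hX ⟨hB, h⟩
  have h1 : (B \ X).encard ≤ (X \ B).encard := le_of_not_ge h0
  have h2 : (B \ X).Finite := finite_of_encard_le hB h1
  have h3 : (B \ I).Infinite := by
    intro h
    exact hXI (diff_trans hB h)
  refine ⟨⟨hB.subset (sdiff_subset_sdiff_left hIX), ?_⟩, h2, h1⟩
  rw [encard_of_infinite h3]
  exact le_top

/-- (F4) -/
theorem spW_of_diff_finite (hI : IndW B I) (hXI : (X \ I).Finite) (hX : ¬ IndW B X) :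
    SpW B X := by
  have hB : (X \ B).Finite := diff_trans hXI hI.1
  have h0 : ¬ (X \ B).encard ≤ (B \ X).encard := fun h => hX ⟨hB, h⟩
  have h1 : (B \ X).encard ≤ (X \ B).encard := le_of_not_ge h0
  exact ⟨finite_of_encard_le hB h1, h1⟩

/-- (F5) a set which is both independent and spanning is exactly balanced. -/
theorem both_balanced (h1 : SpW B I) (h2 : IndW B' I) (ha : Anti B B') :
    (B' \ I).Finite ∧ (I \ B').encard = (B' \ I).encard ∧
    (I \ B).Finite ∧ (I \ B).encard = (B \ I).encard := by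
  have f1 : (B \ B').Finite := diff_trans h1.1 h2.1
  have e1 := ha f1
  have f2 : (B' \ B).Finite := finite_of_encard_eq f1 e1
  have f3 : (B' \ I).Finite := diff_trans f2 h1.1
  have f4 : (I \ B).Finite := diff_trans h2.1 f2
  have lev := level_add (X := I) (Y := B) (Z := B') f4 h1.1 f1 f2
  rw [encard_eq_iff_ncard f1 f2] at e1
  have g1 := (encard_le_iff_ncard h1.1 f4).1 h1.2
  have g2 := (encard_le_iff_ncard h2.1 f3).1 h2.2
  refine ⟨f3, ?_, f4, ?_⟩
  · rw [encard_eq_iff_ncard h2.1 f3]; omega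
  · rw [encard_eq_iff_ncard f4 h1.1]; omega

/-- (F7) a balanced set between an independent and a spanning set. -/
theorem exists_between (hI : IndW B I) (hX : SpW B X) (hIX : I ⊆ X) :
    ∃ J, I ⊆ J ∧ J ⊆ X ∧ (J \ B).Finite ∧ (J \ B).encard = (B \ J).encard := by
  obtain ⟨fa, ha⟩ := hI
  obtain ⟨fb, hb⟩ := hX
  rcases le_total (I \ B).encard (B \ X).encard with hab | hab
  · -- add elements
    have hsub : I \ B ⊆ X \ B := sdiff_subset_sdiff_left hIX
    obtain ⟨T, hT1, hT2, hT3⟩ := Set.exists_superset_subset_encard_eq hsub hab hb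
    refine ⟨(B ∩ X) ∪ I ∪ T, ?_, ?_, ?_, ?_⟩
    · intro x hx; exact Or.inl (Or.inr hx)
    · rintro x ((hx | hx) | hx)
      · exact hx.2
      · exact hIX hx
      · exact (hT2 hx).1
    · have : ((B ∩ X) ∪ I ∪ T) \ B = T := by
        ext x; constructor
        · rintro ⟨(hx | hx) | hx, hxB⟩
          · exact absurd hx.1 hxB
          · exact hT1 ⟨hx, hxB⟩
          · exact hx
        · intro hx; exact ⟨Or.inr hx, (hT2 hx).2⟩
      rw [this]
      exact finite_of_encard_eq fb hT3.symm
    · have e1 : ((B ∩ X) ∪ I ∪ T) \ B = T := by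
        ext x; constructor
        · rintro ⟨(hx | hx) | hx, hxB⟩
          · exact absurd hx.1 hxB
          · exact hT1 ⟨hx, hxB⟩
          · exact hx
        · intro hx; exact ⟨Or.inr hx, (hT2 hx).2⟩
      have e2 : B \ ((B ∩ X) ∪ I ∪ T) = B \ X := by
        ext x; constructor
        · rintro ⟨hx, hn⟩; exact ⟨hx, fun h => hn (Or.inl (Or.inl ⟨hx, h⟩))⟩
        · rintro ⟨hx, hn⟩
          refine ⟨hx, ?_⟩
          rintro ((h | h) | h)
          · exact hn h.2
          · exact hn (hIX h)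
          · exact hn (hT2 h).1
      rw [e1, e2, hT3]
  · -- remove elements
    have hsub : B \ X ⊆ B \ I := sdiff_subset_sdiff_right hIX
    obtain ⟨T, hT1, hT2, hT3⟩ := Set.exists_superset_subset_encard_eq hsub hab ha
    refine ⟨((B ∩ X) ∪ I) \ T, ?_, ?_, ?_, ?_⟩
    · intro x hx; exact ⟨Or.inr hx, fun h => (hT2 h).2 hx⟩
    · rintro x ⟨(hx | hx), -⟩
      · exact hx.2
      · exact hIX hx
    · refine fa.subset ?_
      rintro x ⟨⟨(hx | hx), -⟩, hxB⟩
      · exact absurd hx.1 hxB
      · exact ⟨hx, hxB⟩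
    · have e1 : (((B ∩ X) ∪ I) \ T) \ B = I \ B := by
        ext x; constructor
        · rintro ⟨⟨(hx | hx), -⟩, hxB⟩
          · exact absurd hx.1 hxB
          · exact ⟨hx, hxB⟩
        · rintro ⟨hx, hxB⟩
          exact ⟨⟨Or.inr hx, fun h => hxB (hT2 h).1⟩, hxB⟩
      have e2 : B \ (((B ∩ X) ∪ I) \ T) = T := by
        ext x; constructor
        · rintro ⟨hx, hn⟩
          by_contra hT
          have hX : x ∈ X := by
            by_contra hX
            exact hT (hT1 ⟨hx, hX⟩)
          exact hn ⟨Or.inl ⟨hx, hX⟩, hT⟩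
        · intro hx
          exact ⟨(hT2 hx).1, fun h => h.2 hx⟩
      rw [e1, e2, hT3]

/-- Adding one element. -/
theorem indW_insert_iff {x : α} (hx : x ∉ I) :
    IndW B (insert x I) ↔ (I \ B).Finite ∧ (I \ B).encard + 1 ≤ (B \ I).encard := by
  by_cases hxB : x ∈ B
  · have e1 : (insert x I) \ B = I \ B := by
      ext y; constructor
      · rintro ⟨rfl | hy, hB⟩
        · exact absurd hxB hB
        · exact ⟨hy, hB⟩
      · rintro ⟨hy, hB⟩; exact ⟨Or.inr hy, hB⟩
    have e2 : B \ I = insert x (B \ insert x I) := by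
      ext y; constructor
      · rintro ⟨hy, hI⟩
        by_cases h : y = x
        · exact Or.inl h
        · exact Or.inr ⟨hy, fun h' => h'.elim h hI⟩
      · rintro (rfl | ⟨hy, hI⟩)
        · exact ⟨hxB, hx⟩
        · exact ⟨hy, fun h => hI (Or.inr h)⟩
    have e3 : (B \ I).encard = (B \ insert x I).encard + 1 := by
      conv_lhs => rw [e2]
      exact Set.encard_insert_of_notMem (fun h => h.2 (mem_insert _ _))
    unfold IndW
    rw [e1, e3]
    constructor
    · rintro ⟨h1, h2⟩; exact ⟨h1, add_le_add h2 le_rfl⟩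
    · rintro ⟨h1, h2⟩
      exact ⟨h1, (ENat.add_le_add_iff_right ENat.one_ne_top).1 h2⟩
  · have e1 : (insert x I) \ B = insert x (I \ B) := by
      ext y; constructor
      · rintro ⟨rfl | hy, hB⟩
        · exact Or.inl rfl
        · exact Or.inr ⟨hy, hB⟩
      · rintro (rfl | ⟨hy, hB⟩)
        · exact ⟨Or.inl rfl, hxB⟩
        · exact ⟨Or.inr hy, hB⟩
    have e2 : B \ insert x I = B \ I := by
      ext y; constructor
      · rintro ⟨hy, hI⟩; exact ⟨hy, fun h => hI (Or.inr h)⟩
      · rintro ⟨hy, hI⟩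
        refine ⟨hy, ?_⟩
        rintro (rfl | h)
        · exact hxB hy
        · exact hI h
    have e3 : (insert x (I \ B)).encard = (I \ B).encard + 1 :=
      Set.encard_insert_of_notMem (fun h => hx h.1)
    unfold IndW
    rw [e1, e2, e3]
    constructor
    · rintro ⟨h1, h2⟩; exact ⟨h1.subset (subset_insert _ _), h2⟩
    · rintro ⟨h1, h2⟩; exact ⟨h1.insert _, h2⟩

end basic

end Vale.Agent.P068
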