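import Vale.Agent.P068.Defs

/-! The generic insertion lemma of the recursion. -/

namespace Vale.Agent.P068

open Set

/-- Every family of fewer than continuum many infinite sets of naturals is split by one set. -/
def SplitHyp : Prop :=
  ∀ Q : Set (Set ℕ), Cardinal.mk Q < Cardinal.continuum → (∀ A ∈ Q, A.Infinite) →
    ∃ S : Set ℕ, ∀ A ∈ Q, (A ∩ S).Infinite ∧ (A \ S).Infinite

/-- Generic subsets. -/
theorem SplitHyp.generic (hs : SplitHyp) (Q : Set (Set ℕ))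
    (hQ : Cardinal.mk Q < Cardinal.continuum) (D : Set ℕ) :
    ∃ d ⊆ D, ∀ A ∈ Q, (((A ∩ D) \ d).Finite → (A ∩ D).Finite) ∧
      ((d \ A).Finite → (D \ A).Finite) := by
  classical
  set Q1 : Set (Set ℕ) := {R | R.Infinite ∧ ∃ A ∈ Q, R = A ∩ D} with hQ1
  set Q2 : Set (Set ℕ) := {R | R.Infinite ∧ ∃ A ∈ Q, R = D \ A} with hQ2
  have c1 : Cardinal.mk Q1 < Cardinal.continuum := by
    refine lt_of_le_of_lt ?_ hQ
    have hsub : Q1 ⊆ (fun A => A ∩ D) '' Q := by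
      rintro R ⟨-, A, hA, rfl⟩; exact ⟨A, hA, rfl⟩
    exact (Cardinal.mk_le_mk_of_subset hsub).trans Cardinal.mk_image_le
  have c2 : Cardinal.mk Q2 < Cardinal.continuum := by
    refine lt_of_le_of_lt ?_ hQ
    have hsub : Q2 ⊆ (fun A => D \ A) '' Q := by
      rintro R ⟨-, A, hA, rfl⟩; exact ⟨A, hA, rfl⟩
    exact (Cardinal.mk_le_mk_of_subset hsub).trans Cardinal.mk_image_le
  have c3 : Cardinal.mk (Q1 ∪ Q2 : Set (Set ℕ)) < Cardinal.continuum :=
    lt_of_le_of_lt (Cardinal.mk_union_le _ _)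
      (Cardinal.add_lt_of_lt Cardinal.aleph0_le_continuum c1 c2)
  obtain ⟨S, hS⟩ := hs (Q1 ∪ Q2) c3 (by
    rintro R (hR | hR)
    · exact hR.1
    · exact hR.1)
  refine ⟨S ∩ D, inter_subset_right, ?_⟩
  intro A hA
  constructor
  · intro hfin
    by_contra hinf
    have := (hS (A ∩ D) (Or.inl ⟨hinf, A, hA, rfl⟩)).2
    apply this
    refine hfin.subset ?_
    rintro x ⟨hx, hxS⟩
    exact ⟨hx, fun h => hxS h.1⟩
  · intro hfin
    by_contra hinf
    have := (hS (D \ A) (Or.inr ⟨hinf, A, hA, rfl⟩)).1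
    apply this
    refine hfin.subset ?_
    rintro x ⟨hx, hxS⟩
    exact ⟨⟨hxS, hx.1⟩, hx.2⟩

/-- Left trace. -/
def zs (X : Set (ℕ ⊕ ℕ)) : Set ℕ := {n | Sum.inl n ∈ X}

/-- Complement of the right trace. -/
def ws (X : Set (ℕ ⊕ ℕ)) : Set ℕ := {n | Sum.inr n ∉ X}

/-- The relation whose well-foundedness forbids infinite increasing chains. -/
def Arr (B B' : Set (ℕ ⊕ ℕ)) : Prop := (ws B).Infinite ∧ (ws B \ zs B').Finite

/-- Compatibility of two ranked sets. -/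
def OK (p q : Set (ℕ ⊕ ℕ) × Ordinal.{0}) : Prop :=
  Anti p.1 q.1 ∧ (Arr p.1 q.1 → q.2 < p.2)

/-- the first base -/
def Bzero : Set (ℕ ⊕ ℕ) := {x | x = Sum.inl 0 ∨ ∃ n, x = Sum.inr n}

/-- the second base -/
def Bone : Set (ℕ ⊕ ℕ) := {x | ∃ n : ℕ, x = Sum.inl (2 * n)}

theorem finite_of_traces {X : Set (ℕ ⊕ ℕ)} (h1 : {n : ℕ | Sum.inl n ∈ X}.Finite)
    (h2 : {n : ℕ | Sum.inr n ∈ X}.Finite) : X.Finite := by
  refine ((h1.image Sum.inl).union (h2.image Sum.inr)).subset ?_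
  rintro (n | n) hx
  · exact Or.inl ⟨n, hx, rfl⟩
  · exact Or.inr ⟨n, hx, rfl⟩

theorem trace_l_finite {X : Set (ℕ ⊕ ℕ)} (h : X.Finite) : {n : ℕ | Sum.inl n ∈ X}.Finite :=
  h.preimage (Sum.inl_injective.injOn)

theorem trace_r_finite {X : Set (ℕ ⊕ ℕ)} (h : X.Finite) : {n : ℕ | Sum.inr n ∈ X}.Finite :=
  h.preimage (Sum.inr_injective.injOn)

theorem zs_diff {X Y : Set (ℕ ⊕ ℕ)} (h : (X \ Y).Finite) : (zs X \ zs Y).Finite :=
  (trace_l_finite h).subset (fun _ hn => hn)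

theorem ws_diff {X Y : Set (ℕ ⊕ ℕ)} (h : (X \ Y).Finite) : (ws Y \ ws X).Finite := by
  refine (trace_r_finite h).subset ?_
  rintro n ⟨h1, h2⟩
  refine ⟨?_, h1⟩
  by_contra h
  exact h2 h

theorem diff_of_traces {X Y : Set (ℕ ⊕ ℕ)} (h1 : (zs X \ zs Y).Finite)
    (h2 : (ws Y \ ws X).Finite) : (X \ Y).Finite := by
  refine finite_of_traces ?_ ?_
  · exact h1
  · refine h2.subset ?_
    rintro n ⟨hx, hy⟩
    exact ⟨hy, fun h => h hx⟩

theorem ws_infinite_of_anti {B : Set (ℕ ⊕ ℕ)} (h : Anti Bzero B) (hz : (zs B).Infinite) :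
    (ws B).Infinite := by
  intro hw
  have h1 : (Bzero \ B).Finite := by
    refine finite_of_traces ?_ ?_
    · refine (finite_singleton 0).subset ?_
      rintro n ⟨h0, -⟩
      rcases h0 with h0 | ⟨m, hm⟩
      · simpa using h0
      · exact absurd hm (by simp)
    · refine hw.subset ?_
      rintro n ⟨-, h0⟩
      exact h0
  have h2 : (B \ Bzero).Finite := finite_of_encard_eq h1 (h h1)
  have h3 := zs_diff h2
  have h4 : (zs Bzero).Finite := by
    refine (finite_singleton 0).subset ?_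
    intro n h0
    rcases h0 with h0 | ⟨m, hm⟩
    · simpa using h0
    · exact absurd hm (by simp)
  exact hz ((h3.union h4).subset (by
    intro x hx
    by_cases hx0 : x ∈ zs Bzero
    · exact Or.inr hx0
    · exact Or.inl ⟨hx, hx0⟩))

theorem insertion (hs : SplitHyp) (R : Set (Set (ℕ ⊕ ℕ) × Ordinal.{0}))
    (hval : ∀ p ∈ R, ∀ q ∈ R, OK p q) (hB0 : (Bzero, (0 : Ordinal.{0})) ∈ R)
    (hsm : Cardinal.mk (Prod.fst '' R) < Cardinal.continuum)
    (o : Ordinal.{0}) (ho : ∀ p ∈ R, p.2 < o)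
    (I X : Set (ℕ ⊕ ℕ)) (hIX : I ⊆ X)
    (p' : Set (ℕ ⊕ ℕ) × Ordinal.{0}) (hp' : p' ∈ R) (hI : IndW p'.1 I)
    (hX : ∀ p ∈ R, ¬ IndW p.1 X) (hno : ∀ p ∈ R, ¬ (IndW p.1 I ∧ SpW p.1 X)) :
    ∃ q : Set (ℕ ⊕ ℕ) × Ordinal.{0}, I ⊆ q.1 ∧ q.1 ⊆ X ∧ OK q q ∧
      ∀ p ∈ R, OK p q ∧ OK q p := by
  classical
  have hXI : (X \ I).Infinite := by
    intro hfin
    exact hno p' hp' ⟨hI, spW_of_diff_finite hI hfin (hX p' hp')⟩
  -- the family of traces
  set F : Set (Set (ℕ ⊕ ℕ)) := Prod.fst '' R with hF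
  set Q0 : Set (Set ℕ) := (zs '' F) ∪ ((fun B => (zs B)ᶜ) '' F) ∪ (ws '' F) ∪
    ((fun B => (ws B)ᶜ) '' F) with hQ0
  have hcQ0 : Cardinal.mk Q0 < Cardinal.continuum := by
    have ci : ∀ g : Set (ℕ ⊕ ℕ) → Set ℕ, Cardinal.mk (g '' F) < Cardinal.continuum :=
      fun g => lt_of_le_of_lt Cardinal.mk_image_le hsm
    have ca : ∀ A B : Set (Set ℕ), Cardinal.mk A < Cardinal.continuum →
        Cardinal.mk B < Cardinal.continuum →
        Cardinal.mk (A ∪ B : Set (Set ℕ)) < Cardinal.continuum := fun A B hA hB =>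
      lt_of_le_of_lt (Cardinal.mk_union_le _ _)
        (Cardinal.add_lt_of_lt Cardinal.aleph0_le_continuum hA hB)
    exact ca _ _ (ca _ _ (ca _ _ (ci _) (ci _)) (ci _)) (ci _)
  have hcins : ∀ A : Set ℕ, Cardinal.mk (insert A Q0 : Set (Set ℕ)) < Cardinal.continuum := by
    intro A
    have h1 : Cardinal.mk ({A} : Set (Set ℕ)) < Cardinal.continuum := by
      rw [Cardinal.mk_singleton]
      exact lt_of_lt_of_le Cardinal.one_lt_aleph0 Cardinal.aleph0_le_continuum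
    have : (insert A Q0 : Set (Set ℕ)) = {A} ∪ Q0 := rfl
    rw [this]
    exact lt_of_le_of_lt (Cardinal.mk_union_le _ _)
        (Cardinal.add_lt_of_lt Cardinal.aleph0_le_continuum h1 hcQ0)
  have mz : ∀ p ∈ R, zs p.1 ∈ Q0 := fun p hp =>
    Or.inl (Or.inl (Or.inl ⟨p.1, ⟨p, hp, rfl⟩, rfl⟩))
  have mzc : ∀ p ∈ R, (zs p.1)ᶜ ∈ Q0 := fun p hp =>
    Or.inl (Or.inl (Or.inr ⟨p.1, ⟨p, hp, rfl⟩, rfl⟩))
  have mw : ∀ p ∈ R, ws p.1 ∈ Q0 := fun p hp =>
    Or.inl (Or.inr ⟨p.1, ⟨p, hp, rfl⟩, rfl⟩)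
  have mwc : ∀ p ∈ R, (ws p.1)ᶜ ∈ Q0 := fun p hp =>
    Or.inr ⟨p.1, ⟨p, hp, rfl⟩, rfl⟩
  -- right part
  obtain ⟨e', he'D, he'⟩ := hs.generic (insert (zs I)ᶜ Q0) (hcins _) (ws I \ ws X)
  -- left part
  obtain ⟨e, heD, he⟩ := hs.generic (insert (ws I \ e') Q0) (hcins _) (zs X \ zs I)
  set B : Set (ℕ ⊕ ℕ) := {x | (∃ n ∈ zs I ∪ e, x = Sum.inl n) ∨
    (∃ n, n ∉ ws I \ e' ∧ x = Sum.inr n)} with hB
  have hzB : zs B = zs I ∪ e := by
    ext n
    simp only [zs, hB, mem_ofPred_eq, mem_union]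
    constructor
    · rintro (⟨m, hm, hmn⟩ | ⟨m, -, hmn⟩)
      · have : n = m := by simpa using hmn
        rw [this]; exact hm
      · simp at hmn
    · intro h; exact Or.inl ⟨n, h, rfl⟩
  have hwB : ws B = ws I \ e' := by
    ext n
    simp only [ws, hB, mem_ofPred_eq, mem_sdiff]
    constructor
    · intro h
      by_contra hcon
      exact h (Or.inr ⟨n, hcon, rfl⟩)
    · intro h hcon
      rcases hcon with ⟨m, -, hmn⟩ | ⟨m, hm, hmn⟩
      · simp at hmn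
      · have : n = m := by simpa using hmn
        subst this
        exact hm h
  have hIB : I ⊆ B := by
    rintro (n | n) hn
    · exact Or.inl ⟨n, Or.inl hn, rfl⟩
    · exact Or.inr ⟨n, fun h => h.1 hn, rfl⟩
  have hBX : B ⊆ X := by
    rintro x (⟨n, hn | hn, rfl⟩ | ⟨n, hn, rfl⟩)
    · exact hIX hn
    · exact (heD hn).1
    · by_contra hcon
      have hnI : n ∈ ws I := fun h => hcon (hIX h)
      refine hn ⟨hnI, fun h => ?_⟩
      exact (he'D h).2 hcon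
  -- facts about generic traces
  have gz : ∀ A ∈ (insert (ws I \ e') Q0 : Set (Set ℕ)), (A \ zs B).Finite →
      (A \ zs I).Finite := by
    intro A hA hfin
    have h1 : ((A ∩ (zs X \ zs I)) \ e).Finite := by
      refine hfin.subset ?_
      rintro x ⟨⟨hx, hx2⟩, hxe⟩
      refine ⟨hx, ?_⟩
      rw [hzB]
      rintro (h | h)
      · exact hx2.2 h
      · exact hxe h
    have h2 := (he A hA).1 h1
    refine (h2.union hfin).subset ?_
    rintro x ⟨hx, hxI⟩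
    by_cases hxe : x ∈ e
    · exact Or.inl ⟨hx, heD hxe⟩
    · refine Or.inr ⟨hx, ?_⟩
      rw [hzB]
      rintro (h | h)
      · exact hxI h
      · exact hxe h
  have gw : ∀ A ∈ (insert (zs I)ᶜ Q0 : Set (Set ℕ)), ((ws B) ∩ A).Finite →
      ((ws I) ∩ A).Finite := by
    intro A hA hfin
    have h1 : ((A ∩ (ws I \ ws X)) \ e').Finite := by
      refine hfin.subset ?_
      rintro x ⟨⟨hx, hx2⟩, hxe⟩
      rw [hwB]
      exact ⟨⟨hx2.1, hxe⟩, hx⟩
    have h2 := (he' A hA).1 h1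
    refine (h2.union hfin).subset ?_
    rintro x ⟨hxI, hx⟩
    by_cases hxe : x ∈ e'
    · exact Or.inl ⟨hx, he'D hxe⟩
    · refine Or.inr ⟨?_, hx⟩
      rw [hwB]
      exact ⟨hxI, hxe⟩
  -- anti, first direction
  have anti1 : ∀ p ∈ R, ¬ (p.1 \ B).Finite := by
    intro p hp hfin
    have h1 : (zs p.1 \ zs I).Finite := gz _ (Or.inr (mz p hp)) (zs_diff hfin)
    have h2 : (ws I \ ws p.1).Finite := by
      have h3 := ws_diff hfin
      have h4 : (ws I ∩ (ws p.1)ᶜ).Finite := gw _ (Or.inr (mwc p hp)) h3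
      exact h4
    have h5 : (p.1 \ I).Finite := diff_of_traces h1 h2
    exact hno p' hp' ⟨hI, interp_below hI hIX hXI h5 (hval p hp p' hp').1⟩
  have anti2 : ∀ p ∈ R, ¬ (B \ p.1).Finite := by
    intro p hp hfin
    have h1 : (zs X \ zs p.1).Finite := by
      have h2 := zs_diff hfin
      rw [hzB] at h2
      have h3 : (e \ zs p.1).Finite := h2.subset (fun x hx => ⟨Or.inr hx.1, hx.2⟩)
      have h4 := (he _ (Or.inr (mz p hp))).2 h3
      refine (h2.union h4).subset ?_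
      rintro x ⟨hx, hxp⟩
      by_cases hxI : x ∈ zs I
      · exact Or.inl ⟨Or.inl hxI, hxp⟩
      · exact Or.inr ⟨⟨hx, hxI⟩, hxp⟩
    have h2 : (ws p.1 \ ws X).Finite := by
      have h3 := ws_diff hfin
      rw [hwB] at h3
      have h4 : (e' \ (ws p.1)ᶜ).Finite := by
        refine h3.subset ?_
        rintro x ⟨hx, hxp⟩
        exact ⟨not_not.1 hxp, fun h => h.2 hx⟩
      have h5 := (he' _ (Or.inr (mwc p hp))).2 h4
      refine (h3.union h5).subset ?_
      rintro x ⟨hx, hxX⟩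
      by_cases hxI : x ∈ ws I
      · exact Or.inr ⟨⟨hxI, hxX⟩, not_not.2 hx⟩
      · exact Or.inl ⟨hx, fun h => hxI h.1⟩
    have h5 : (X \ p.1).Finite := diff_of_traces h1 h2
    exact hno p hp (interp_above hIX hXI h5 (hX p hp))
  -- the rank
  have hfinI : ¬ (zs I).Finite → (zs I \ zs p'.1).Finite ∧ (ws p'.1 \ ws I).Finite ∧
      (ws p'.1).Infinite := by
    intro h
    have h1 : (zs I \ zs p'.1).Finite := zs_diff hI.1
    refine ⟨h1, ws_diff hI.1, ?_⟩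
    refine ws_infinite_of_anti (hval _ hB0 _ hp').1 ?_
    intro h2
    exact h ((h1.union h2).subset (by
      intro x hx
      by_cases hx0 : x ∈ zs p'.1
      · exact Or.inr hx0
      · exact Or.inl ⟨hx, hx0⟩))
  refine ⟨(B, if (zs I).Finite then o else p'.2), hIB, hBX, ⟨?_, ?_⟩, ?_⟩
  · intro _; rfl
  · -- no self arrow
    rintro ⟨hinf, hfin⟩
    exfalso
    have h1 : (ws B \ zs I).Finite := gz _ (Or.inl hwB) hfin
    have h2 : (ws I ∩ (zs I)ᶜ).Finite := gw _ (Or.inl rfl) h1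
    by_cases hz : (zs I).Finite
    · apply hinf
      refine (h1.union hz).subset ?_
      intro x hx
      by_cases hx0 : x ∈ zs I
      · exact Or.inr hx0
      · exact Or.inl ⟨hx, hx0⟩
    · obtain ⟨g1, g2, g3⟩ := hfinI hz
      have g4 : (ws p'.1 \ zs p'.1).Finite :=
        diff_trans g2 (diff_trans (Y := zs I) h2 g1)
      have := (hval p' hp' p' hp').2 ⟨g3, g4⟩
      exact lt_irrefl _ this
  · intro p hp
    refine ⟨⟨?_, ?_⟩, ?_, ?_⟩
    · intro h; exact absurd h (anti1 p hp)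
    · rintro ⟨hinf, hfin⟩
      have h1 : (ws p.1 \ zs I).Finite := gz _ (Or.inr (mw p hp)) hfin
      by_cases hz : (zs I).Finite
      · exfalso
        apply hinf
        refine (h1.union hz).subset ?_
        intro x hx
        by_cases hx0 : x ∈ zs I
        · exact Or.inr hx0
        · exact Or.inl ⟨hx, hx0⟩
      · obtain ⟨g1, g2, g3⟩ := hfinI hz
        simp only [hz, if_false]
        exact (hval p hp p' hp').2 ⟨hinf, diff_trans h1 g1⟩
    · intro h; exact absurd h (anti2 p hp)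
    · rintro ⟨hinf, hfin⟩
      by_cases hz : (zs I).Finite
      · simp only [hz, if_true]
        exact ho p hp
      · obtain ⟨g1, g2, g3⟩ := hfinI hz
        simp only [hz, if_false]
        have h2 : (ws I ∩ (zs p.1)ᶜ).Finite := gw _ (Or.inr (mzc p hp)) hfin
        exact (hval p' hp' p hp).2 ⟨g3, diff_trans g2 h2⟩

end Vale.Agent.P068
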