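import Vale.Agent.P068.PC
import Vale.Agent.P068.CH

/-! Assembly: both matroids are direct sums of uniform matroids. -/

namespace Vale.Agent.P068

open Set
open scoped Matroid

/-- `M` is a direct sum of countably many uniform matroids: there is a block map `b` such that a
set is independent as soon as its part in every block is, and inside a block every set is
independent or spans the block. -/
def IsSumOfUniform {β : Type*} (M : Matroid β) : Prop :=
  ∃ b : β → ℤ, (∀ X ⊆ M.E, (∀ j, M.Indep (X ∩ b ⁻¹' {j})) → M.Indep X) ∧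
    ∀ j, ∀ X ⊆ M.E ∩ b ⁻¹' {j}, M.Indep X ∨ M.E ∩ b ⁻¹' {j} ⊆ M.closure X

theorem big_isSumOfUniform {U : Matroid (ℕ ⊕ ℕ)} (hE : U.E = univ) (hU : Unif U) (c : ℤ) :
    IsSumOfUniform (big U c) := by
  classical
  refine ⟨fun p => ((blkEquiv c).symm p).1, ?_, ?_⟩
  · intro X _ h
    rw [big_indep_iff]
    intro j
    have h1 := (big_indep_iff c _).1 (h j) j
    refine h1.subset ?_
    intro x hx
    refine ⟨hx, ?_⟩
    have e : (blkEquiv c).symm (blk (2 * j + c) x) = ⟨j, x⟩ := by
      rw [← blkEquiv_apply, Equiv.symm_apply_apply]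
    simp only [mem_preimage, mem_singleton_iff]
    rw [e]
  · intro j X hX
    have hdec : ∀ p : ℤ × ℕ, ((blkEquiv c).symm p).1 = j → ∃ x, p = blk (2 * j + c) x := by
      intro p hp
      refine ⟨((blkEquiv c).symm p).2, ?_⟩
      rw [← blkEquiv_apply]
      have : (⟨j, ((blkEquiv c).symm p).2⟩ : (_ : ℤ) × (ℕ ⊕ ℕ)) = (blkEquiv c).symm p := by
        rw [← hp]
      rw [this, Equiv.apply_symm_apply]
    have hother : ∀ j', j' ≠ j → ∀ Y : Set (ℤ × ℕ), (∀ p ∈ Y, ((blkEquiv c).symm p).1 = j) →
        blk (2 * j' + c) ⁻¹' Y = ∅ := by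
      intro j' hj' Y hY
      rw [Set.eq_empty_iff_forall_notMem]
      intro x hx
      have := hY _ hx
      rw [← blkEquiv_apply, Equiv.symm_apply_apply] at this
      exact hj' this
    have hXj : ∀ p ∈ X, ((blkEquiv c).symm p).1 = j := fun p hp => (hX hp).2
    rcases (hU.W (2 * j + c)) (blk (2 * j + c) ⁻¹' X) (by rw [W_E hE]; exact subset_univ _)
      with h | h
    · left
      rw [big_indep_iff]
      intro j'
      by_cases hj' : j' = j
      · subst hj'; exact h
      · rw [hother j' hj' X hXj]
        exact Matroid.empty_indep _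
    · right
      obtain ⟨B, hB, hBX⟩ := h.exists_isBase_subset
      have hIB : (big U c).Indep (blk (2 * j + c) '' B) := by
        rw [big_indep_iff]
        intro j'
        by_cases hj' : j' = j
        · subst hj'
          refine hB.indep.subset ?_
          rintro x ⟨y, hy, hyx⟩
          have := (blk_bijective c).1 (a₁ := ⟨j', y⟩) (a₂ := ⟨j', x⟩) hyx
          have hyx' : y = x := by simpa using this
          rw [← hyx']; exact hy
        · rw [hother j' hj' _ (by
            rintro _ ⟨y, -, rfl⟩
            rw [← blkEquiv_apply, Equiv.symm_apply_apply])]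
          exact Matroid.empty_indep _
      have hsub : blk (2 * j + c) '' B ⊆ X := by
        rintro _ ⟨y, hy, rfl⟩
        exact hBX hy
      rintro p ⟨-, hp⟩
      refine (big U c).closure_subset_closure hsub ?_
      rw [hIB.mem_closure_iff']
      refine ⟨by rw [big_E hE]; trivial, ?_⟩
      intro hins
      obtain ⟨x, rfl⟩ := hdec p hp
      have h1 := (big_indep_iff c _).1 hins j
      have h2 : B ⊆ blk (2 * j + c) ⁻¹' (insert (blk (2 * j + c) x) (blk (2 * j + c) '' B)) := by
        intro y hy
        exact Or.inr ⟨y, hy, rfl⟩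
      have h3 := hB.eq_of_subset_indep h1 h2
      have : x ∈ B := by
        rw [h3]; exact Or.inl rfl
      exact ⟨x, this, rfl⟩

theorem counterexample (hs : SplitHyp) : ∃ M K : Matroid (ℤ × ℕ), M.E = univ ∧ K.E = univ ∧
    IsSumOfUniform M ∧ IsSumOfUniform K ∧ ¬ SatisfiesIntersection M K ∧
    ¬ HasPackingCovering ![M, K✶] univ := by
  obtain ⟨D, hD⟩ := exists_udata hs
  have hUE : D.matroid.E = univ := D.matroid_E
  have hUnif : Unif D.matroid := by
    intro X _
    rcases D.total X with h | h
    · exact Or.inl h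
    · exact Or.inr (D.matroid_spanning_iff.2 h)
  refine ⟨big D.matroid 0, big D.matroid 1, big_E hUE 0, big_E hUE 1,
    big_isSumOfUniform hUE hUnif 0, big_isSumOfUniform hUE hUnif 1, no_intersection D hD, ?_⟩
  intro h
  have := intersection_of_packingCovering (big_E hUE 0)
    (by rw [Matroid.dual_ground, big_E hUE 1]) h
  rw [Matroid.dual_dual] at this
  exact no_intersection D hD this

end Vale.Agent.P068
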