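import Vale.Agent.P068.Sum

/-! Packing/covering partitions of pairs give intersection for the pair with one dual. -/

namespace Vale.Agent.P068

open Set
open scoped Matroid

/-- A packing/covering partition for a family of matroids on the common ground set `E`. -/
def HasPackingCovering {β ι : Type*} (M : ι → Matroid β) (E : Set β) : Prop :=
  ∃ P C : Set β, P ∪ C = E ∧ Disjoint P C ∧ ∃ S I : ι → Set β,
    (∀ i, S i ⊆ P) ∧ (∀ i, I i ⊆ C) ∧ (∀ i j, i ≠ j → Disjoint (S i) (S j)) ∧
    (∀ i, ((M i) ↾ P).closure (S i) = P) ∧ (∀ i, (((M i)✶ ↾ C)✶).Indep (I i)) ∧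
    (⋃ i, I i) = C

theorem intersection_of_packingCovering {β : Type*} {M N : Matroid β} (hM : M.E = univ)
    (hN : N.E = univ) (h : HasPackingCovering ![M, N] univ) : SatisfiesIntersection M N✶ := by
  classical
  obtain ⟨P, C, hPC, hdisj, S, I, hSP, hIC, hS, hcl, hI, hU⟩ := h
  have hCc : C = univ \ P := by
    ext x
    constructor
    · intro hx; exact ⟨trivial, fun h => Set.disjoint_left.1 hdisj h hx⟩
    · rintro ⟨-, hx⟩
      have : x ∈ P ∪ C := by rw [hPC]; trivial
      rcases this with h | h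
      · exact absurd h hx
      · exact h
  have hPc : P = univ \ C := by
    rw [hCc]; simp
  have hS01 : Disjoint (S 0) (S 1) := hS 0 1 (by decide)
  -- the first matroid spans P
  have h0 : (M ↾ P).closure (S 0) = P := hcl 0
  have h1 : (N ↾ P).closure (S 1) = P := hcl 1
  have i0 : ((M✶ ↾ C)✶).Indep (I 0) := hI 0
  have i1 : ((N✶ ↾ C)✶).Indep (I 1) := hI 1
  have sp0 : (M ↾ P).Spanning (S 0) := by
    rw [Matroid.spanning_iff]
    exact ⟨by rw [h0]; rfl, by simpa using hSP 0⟩
  have sp1 : (N ↾ P).Spanning (S 1) := by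
    rw [Matroid.spanning_iff]
    exact ⟨by rw [h1]; rfl, by simpa using hSP 1⟩
  obtain ⟨JM, hJMb, hJMS⟩ := sp0.exists_isBase_subset
  have hJMP : JM ⊆ P := hJMS.trans (hSP 0)
  have hbM : M.IsBasis JM P := by
    rwa [Matroid.isBase_restrict_iff (by rw [hM]; exact subset_univ _)] at hJMb
  -- JM is independent in N✶ / C
  have hJMN : (N✶ ／ C).Indep JM := by
    have e : (N ↾ P)✶ = N✶ ／ C := by
      have : N ↾ P = N ＼ C := by
        rw [Matroid.delete_eq_restrict, hN, ← hPc]
      rw [this, Matroid.dual_delete]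
    rw [← e, ← Matroid.coindep_def, Matroid.coindep_iff_compl_spanning (by simpa using hJMP)]
    refine sp1.superset ?_ ?_
    · intro x hx
      exact ⟨hSP 1 hx, fun h => Set.disjoint_left.1 hS01 (hJMS h) hx⟩
    · exact sdiff_subset
  -- I 0 independent in M / P
  have hI0 : (M ／ P).Indep (I 0) := by
    have e : (M✶ ↾ C)✶ = M ／ P := by
      rw [← Matroid.dual_delete_dual, Matroid.delete_eq_restrict, Matroid.dual_ground, hM, ← hCc]
    rw [← e]; exact i0
  -- a basis of C in N✶
  have hspC : (N✶ ↾ C).Spanning (C \ I 1) := by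
    have : ((N✶ ↾ C)✶).Indep (I 1) := i1
    rw [← Matroid.coindep_def, Matroid.coindep_iff_compl_spanning (by simpa using hIC 1)] at this
    exact this
  obtain ⟨JK, hJKb, hJKS⟩ := hspC.exists_isBase_subset
  have hbK : N✶.IsBasis JK C := by
    rwa [Matroid.isBase_restrict_iff
      (by rw [Matroid.dual_ground, hN]; exact subset_univ _)] at hJKb
  have hJKI : JK ⊆ I 0 := by
    intro x hx
    obtain ⟨hxC, hx1⟩ := hJKS hx
    rw [← hU, mem_iUnion] at hxC
    obtain ⟨i, hi⟩ := hxC
    fin_cases i
    · exact hi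
    · exact absurd hi hx1
  refine ⟨JM ∪ JK, JM, JK, ?_, ?_, rfl, ?_, ?_⟩
  · have := (hbM.contract_indep_iff.1 hI0).1
    refine this.subset ?_
    rintro x (hx | hx)
    · exact Or.inr hx
    · exact Or.inl (hJKI hx)
  · have := (hbK.contract_indep_iff.1 hJMN).1
    exact this
  · rw [Set.disjoint_left]
    intro x hx hx'
    exact Set.disjoint_left.1 hdisj (hJMP hx) (hJKS hx').1
  · rw [hM, Set.eq_univ_iff_forall]
    intro x
    have : x ∈ P ∪ C := by rw [hPC]; trivial
    rcases this with h | h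
    · exact Or.inl (hbM.subset_closure h)
    · exact Or.inr (hbK.subset_closure h)

end Vale.Agent.P068
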