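import Vale.Agent.P068.Defs

/-! A balanced family of sets gives a uniform matroid. -/

namespace Vale.Agent.P068

open Set

variable {α : Type*}

/-- The combinatorial data behind a uniform matroid on a type. -/
structure UData (α : Type*) where
  /-- the representing bases -/
  fam : Set (Set α)
  nonempty : fam.Nonempty
  anti : ∀ B ∈ fam, ∀ B' ∈ fam, Anti B B'
  solved : ∀ I X : Set α, I ⊆ X →
    (∃ B ∈ fam, SpW B I) ∨ (∃ B ∈ fam, IndW B X) ∨ (∃ B ∈ fam, IndW B I ∧ SpW B X)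

namespace UData

variable (D : UData α)

/-- independent sets -/
def Ind (X : Set α) : Prop := ∃ B ∈ D.fam, IndW B X

/-- spanning sets -/
def Sp (X : Set α) : Prop := ∃ B ∈ D.fam, SpW B X

/-- exactly balanced sets -/
def Bal (X : Set α) : Prop := ∃ B ∈ D.fam, (X \ B).Finite ∧ (X \ B).encard = (B \ X).encard

variable {D} {I J X : Set α}

theorem Ind.mono (h : D.Ind J) (hIJ : I ⊆ J) : D.Ind I := by
  obtain ⟨B, hB, h⟩ := h
  exact ⟨B, hB, h.mono hIJ⟩

theorem Sp.mono (h : D.Sp I) (hIJ : I ⊆ J) : D.Sp J := by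
  obtain ⟨B, hB, h⟩ := h
  exact ⟨B, hB, h.mono hIJ⟩

theorem Bal.ind (h : D.Bal X) : D.Ind X := by
  obtain ⟨B, hB, h1, h2⟩ := h
  exact ⟨B, hB, h1, h2.le⟩

theorem Bal.sp (h : D.Bal X) : D.Sp X := by
  obtain ⟨B, hB, h1, h2⟩ := h
  exact ⟨B, hB, finite_of_encard_eq h1 h2, h2.symm.le⟩

variable (D)

theorem total (X : Set α) : D.Ind X ∨ D.Sp X := by
  rcases D.solved X X Subset.rfl with ⟨B, hB, h⟩ | ⟨B, hB, h⟩ | ⟨B, hB, h, -⟩
  · exact Or.inr ⟨B, hB, h⟩
  · exact Or.inl ⟨B, hB, h⟩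
  · exact Or.inl ⟨B, hB, h⟩

theorem interp (hIX : I ⊆ X) (hI : D.Ind I) (hX : D.Sp X) :
    ∃ J, I ⊆ J ∧ J ⊆ X ∧ D.Bal J := by
  have key : ∃ B ∈ D.fam, IndW B I ∧ SpW B X := by
    rcases D.solved I X hIX with ⟨B, hB, h⟩ | ⟨B, hB, h⟩ | h
    · obtain ⟨B', hB', h'⟩ := hI
      have hb := both_balanced h h' (D.anti B hB B' hB')
      refine ⟨B, hB, ⟨hb.2.2.1, hb.2.2.2.le⟩, h.mono hIX⟩
    · obtain ⟨B', hB', h'⟩ := hX
      have hb := both_balanced h' h (D.anti B' hB' B hB)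
      refine ⟨B, hB, h.mono hIX, ⟨hb.1, hb.2.1.symm.le⟩⟩
    · exact h
  obtain ⟨B, hB, h1, h2⟩ := key
  obtain ⟨J, hIJ, hJX, hf, he⟩ := exists_between h1 h2 hIX
  exact ⟨J, hIJ, hJX, B, hB, hf, he⟩

theorem bal_not_insert {x : α} (hJ : D.Bal J) (hx : x ∉ J) : ¬ D.Ind (insert x J) := by
  rintro ⟨B', hB', h⟩
  rw [indW_insert_iff hx] at h
  obtain ⟨B, hB, h1, h2⟩ := hJ
  have hs : SpW B J := ⟨finite_of_encard_eq h1 h2, h2.symm.le⟩
  have hi : IndW B' J := ⟨h.1, le_trans (by exact le_self_add) h.2⟩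
  obtain ⟨f1, e1, -⟩ := both_balanced hs hi (D.anti B hB B' hB')
  have h3 := h.2
  rw [e1] at h3
  have hne : (B' \ J).encard ≠ ⊤ := by
    rw [Set.encard_ne_top_iff]; exact f1
  have := (ENat.lt_add_one_iff hne).2 le_rfl
  exact absurd h3 (not_le_of_gt this)

theorem bal_maximal (hJ : D.Bal J) : Maximal D.Ind J := by
  refine ⟨hJ.ind, ?_⟩
  intro K hK hJK x hx
  by_contra hxJ
  exact D.bal_not_insert hJ hxJ (hK.mono (insert_subset hx hJK))

theorem maximal_bal (hJ : Maximal D.Ind J) : D.Bal J := by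
  obtain ⟨B, hB, h1, h2⟩ := hJ.prop
  refine ⟨B, hB, h1, le_antisymm h2 ?_⟩
  by_contra hlt
  push Not at hlt
  have hadd : (J \ B).encard + 1 ≤ (B \ J).encard := Order.add_one_le_of_lt hlt
  have hne : (B \ J).Nonempty := by
    rw [← Set.encard_ne_zero]
    intro h0
    rw [h0] at hlt
    exact absurd hlt (not_lt_bot (a := (J \ B).encard))
  obtain ⟨x, hxB, hxJ⟩ := hne
  have hins : D.Ind (insert x J) := ⟨B, hB, (indW_insert_iff hxJ).2 ⟨h1, hadd⟩⟩
  exact hxJ (hJ.le_of_ge hins (subset_insert _ _) (mem_insert _ _))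

/-- The uniform matroid attached to the data. -/
def indepMatroid : IndepMatroid α where
  E := univ
  Indep := D.Ind
  indep_empty := by
    obtain ⟨B, hB⟩ := D.nonempty
    exact ⟨B, hB, IndW.of_subset (empty_subset _)⟩
  indep_subset := fun I J hJ hIJ => hJ.mono hIJ
  indep_aug := by
    intro I B0 hI hnm hB0
    have hne : (B0 \ I).Nonempty := by
      by_contra h
      rw [not_nonempty_iff_eq_empty, sdiff_eq_empty] at h
      exact hnm (by rwa [subset_antisymm (hB0.le_of_ge hI h) h])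
    obtain ⟨x, hxB, hxI⟩ := hne
    refine ⟨x, ⟨hxB, hxI⟩, ?_⟩
    have : ∃ y, y ∉ I ∧ D.Ind (insert y I) := by
      by_contra hcon
      push Not at hcon
      apply hnm
      refine ⟨hI, ?_⟩
      intro K hK hIK y hy
      by_contra hyI
      exact hcon y hyI (hK.mono (insert_subset hy hIK))
    obtain ⟨y, hy, B, hB, hins⟩ := this
    rw [indW_insert_iff hy] at hins
    exact ⟨B, hB, (indW_insert_iff hxI).2 hins⟩
  indep_maximal := by
    intro X _ I hI hIX
    rcases D.total X with hX | hX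
    · refine ⟨X, hIX, ⟨hX, Subset.rfl⟩, ?_⟩
      intro K hK _
      exact hK.2
    · obtain ⟨J, hIJ, hJX, hJ⟩ := D.interp hIX hI hX
      refine ⟨J, hIJ, ⟨hJ.ind, hJX⟩, ?_⟩
      intro K hK hJK
      exact (D.bal_maximal hJ).le_of_ge hK.1 hJK
  subset_ground := fun I _ => subset_univ I

/-- The uniform matroid attached to the data. -/
def matroid : Matroid α := D.indepMatroid.matroid

@[simp] theorem matroid_E : D.matroid.E = univ := rfl

theorem matroid_indep_iff : D.matroid.Indep X ↔ D.Ind X := Iff.rfl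

theorem matroid_isBase_iff : D.matroid.IsBase X ↔ D.Bal X := by
  constructor
  · intro h; exact D.maximal_bal h
  · intro h; exact D.bal_maximal h

theorem matroid_spanning_iff : D.matroid.Spanning X ↔ D.Sp X := by
  rw [Matroid.spanning_iff_exists_isBase_subset (by simp)]
  constructor
  · rintro ⟨B, hB, hBX⟩
    exact ((D.matroid_isBase_iff).1 hB).sp.mono hBX
  · intro h
    obtain ⟨J, -, hJX, hJ⟩ := D.interp (empty_subset X)
      (by
        obtain ⟨B, hB⟩ := D.nonempty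
        exact ⟨B, hB, IndW.of_subset (empty_subset _)⟩) h
    exact ⟨J, (D.matroid_isBase_iff).2 hJ, hJX⟩

end UData

end Vale.Agent.P068
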