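import Vale.Agent.P068.Insert
import Vale.Agent.P068.Uniform

/-! The transfinite recursion. -/

namespace Vale.Agent.P068

open Set

/-- ranked sets -/
abbrev RS : Type 1 := Set (ℕ ⊕ ℕ) × Ordinal.{0}

/-- A task is solved. -/
def Solved (R : Set RS) (I X : Set (ℕ ⊕ ℕ)) : Prop :=
  (∃ p ∈ R, SpW p.1 I) ∨ (∃ p ∈ R, IndW p.1 X) ∨ (∃ p ∈ R, IndW p.1 I ∧ SpW p.1 X)

theorem Solved.mono {R R' : Set RS} {I X : Set (ℕ ⊕ ℕ)} (h : Solved R I X) (hR : R ⊆ R') :
    Solved R' I X := by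
  rcases h with ⟨p, hp, h⟩ | ⟨p, hp, h⟩ | ⟨p, hp, h⟩
  · exact Or.inl ⟨p, hR hp, h⟩
  · exact Or.inr (Or.inl ⟨p, hR hp, h⟩)
  · exact Or.inr (Or.inr ⟨p, hR hp, h⟩)

/-- One step of the recursion is good. -/
def Good (R : Set RS) (t : Set (ℕ ⊕ ℕ) × Set (ℕ ⊕ ℕ)) (q : RS) : Prop :=
  OK q q ∧ (∀ p ∈ R, OK p q ∧ OK q p) ∧ (t.1 ⊆ t.2 → Solved (insert q R) t.1 t.2)

theorem step (hs : SplitHyp) (R : Set RS)
    (hval : ∀ p ∈ R, ∀ q ∈ R, OK p q) (hB0 : (Bzero, (0 : Ordinal.{0})) ∈ R)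
    (hsm : Cardinal.mk (Prod.fst '' R) < Cardinal.continuum)
    (o : Ordinal.{0}) (ho : ∀ p ∈ R, p.2 < o)
    (t : Set (ℕ ⊕ ℕ) × Set (ℕ ⊕ ℕ)) : ∃ q, Good R t q := by
  classical
  by_cases hIX : t.1 ⊆ t.2
  swap
  · exact ⟨(Bzero, 0), hval _ hB0 _ hB0, fun p hp => ⟨hval p hp _ hB0, hval _ hB0 p hp⟩,
      fun h => absurd h hIX⟩
  by_cases hsol : Solved R t.1 t.2
  · exact ⟨(Bzero, 0), hval _ hB0 _ hB0, fun p hp => ⟨hval p hp _ hB0, hval _ hB0 p hp⟩,
      fun _ => hsol.mono (subset_insert _ _)⟩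
  have hn1 : ∀ p ∈ R, ¬ SpW p.1 t.1 := fun p hp h => hsol (Or.inl ⟨p, hp, h⟩)
  have hn2 : ∀ p ∈ R, ¬ IndW p.1 t.2 := fun p hp h => hsol (Or.inr (Or.inl ⟨p, hp, h⟩))
  have hn3 : ∀ p ∈ R, ¬ (IndW p.1 t.1 ∧ SpW p.1 t.2) :=
    fun p hp h => hsol (Or.inr (Or.inr ⟨p, hp, h⟩))
  by_cases hI : ∃ p' ∈ R, IndW p'.1 t.1
  · obtain ⟨p', hp', hI'⟩ := hI
    obtain ⟨q, h1, h2, h3, h4⟩ := insertion hs R hval hB0 hsm o ho t.1 t.2 hIX p' hp' hI' hn2 hn3
    refine ⟨q, h3, h4, fun _ => ?_⟩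
    exact Or.inr (Or.inr ⟨q, mem_insert _ _, IndW.of_subset h1, SpW.of_subset h2⟩)
  · push Not at hI
    obtain ⟨q, h1, h2, h3, h4⟩ := insertion hs R hval hB0 hsm o ho ∅ t.1 (empty_subset _)
      (Bzero, 0) hB0 (IndW.of_subset (empty_subset _)) hI (fun p hp h => hn1 p hp h.2)
    exact ⟨q, h3, h4, fun _ => Or.inl ⟨q, mem_insert _ _, SpW.of_subset h2⟩⟩

theorem anti_zero_one : ¬ (Bzero \ Bone).Finite := by
  intro h
  have h1 := trace_r_finite h
  refine Set.infinite_univ (α := ℕ) (h1.subset ?_)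
  intro n _
  refine ⟨Or.inr ⟨n, rfl⟩, ?_⟩
  rintro ⟨m, hm⟩
  simp at hm

theorem anti_one_zero : ¬ (Bone \ Bzero).Finite := by
  intro h
  have h1 := trace_l_finite h
  have hinf : (Set.range (fun n : ℕ => 2 * (n + 1))).Infinite := by
    apply Set.infinite_range_of_injective
    intro a b hab
    simpa using hab
  refine hinf (h1.subset ?_)
  rintro _ ⟨n, rfl⟩
  refine ⟨⟨n + 1, rfl⟩, ?_⟩
  rintro (h0 | ⟨m, hm⟩)
  · simp at h0
  · simp at hm

theorem ws_zero : ws Bzero = ∅ := by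
  ext n
  simp only [ws, mem_ofPred_eq, mem_empty_iff_false, iff_false, not_not]
  exact Or.inr ⟨n, rfl⟩

theorem ws_one_diff (Z : Set ℕ) (hZ : ∀ n ∈ Z, n % 2 = 0 ∨ n = 0) :
    ¬ (ws Bone \ Z).Finite := by
  intro h
  have hinf : (Set.range (fun n : ℕ => 2 * n + 1)).Infinite := by
    apply Set.infinite_range_of_injective
    intro a b hab
    simpa using hab
  refine hinf (h.subset ?_)
  rintro _ ⟨n, rfl⟩
  refine ⟨?_, ?_⟩
  · rintro ⟨m, hm⟩
    simp at hm
  · intro hcon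
    rcases hZ _ hcon with h1 | h1
    · have h2 : (2 * n + 1) % 2 = 0 := h1
      omega
    · have h2 : 2 * n + 1 = 0 := h1
      omega

theorem ok_init : ∀ p ∈ ({(Bzero, 0), (Bone, 0)} : Set RS), ∀ q ∈ ({(Bzero, 0), (Bone, 0)} : Set RS),
    OK p q := by
  have e0 : ∀ B', ¬ Arr Bzero B' := by
    rintro B' ⟨h, -⟩
    rw [ws_zero] at h
    exact h finite_empty
  have e10 : ¬ Arr Bone Bzero := by
    rintro ⟨-, h⟩
    refine ws_one_diff (zs Bzero) ?_ h
    rintro n (h0 | ⟨m, hm⟩)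
    · right; simpa using h0
    · simp at hm
  have e11 : ¬ Arr Bone Bone := by
    rintro ⟨-, h⟩
    refine ws_one_diff (zs Bone) ?_ h
    rintro n ⟨m, hm⟩
    left
    have : n = 2 * m := by simpa using hm
    omega
  rintro p (rfl | rfl) q (rfl | rfl)
  · exact ⟨fun _ => rfl, fun h => absurd h (e0 _)⟩
  · exact ⟨fun h => absurd h anti_zero_one, fun h => absurd h (e0 _)⟩
  · exact ⟨fun h => absurd h anti_one_zero, fun h => absurd h e10⟩
  · exact ⟨fun _ => rfl, fun h => absurd h e11⟩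

theorem exists_family (hs : SplitHyp) : ∃ R : Set RS, (Bzero, (0 : Ordinal.{0})) ∈ R ∧
    (Bone, (0 : Ordinal.{0})) ∈ R ∧ (∀ p ∈ R, ∀ q ∈ R, OK p q) ∧
    ∀ I X : Set (ℕ ⊕ ℕ), I ⊆ X → Solved R I X := by
  classical
  let T : Type := Set (ℕ ⊕ ℕ) × Set (ℕ ⊕ ℕ)
  have hT : Cardinal.mk T = Cardinal.continuum := by
    have h1 : Cardinal.mk (Set (ℕ ⊕ ℕ)) = Cardinal.continuum := by
      rw [Cardinal.mk_set, Cardinal.mk_sum]
      simp
    show Cardinal.mk (Set (ℕ ⊕ ℕ) × Set (ℕ ⊕ ℕ)) = Cardinal.continuum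
    rw [Cardinal.mk_prod, h1]
    simp
  obtain ⟨r, wo, hr⟩ := Cardinal.exists_ord_eq T
  have hlt : ∀ t : T, Cardinal.mk {s : T // r s t} < Cardinal.continuum := by
    intro t
    have h1 := Cardinal.card_typein_lt (r := r) t hr
    rw [hT, Ordinal.card_typein] at h1
    exact h1
  have hwf : WellFounded r := wo.wf
  let base : Set RS := {(Bzero, 0), (Bone, 0)}
  let G : (t : T) → ((s : T) → r s t → RS) → RS := fun t ih =>
    if h : ∃ q, Good (base ∪ {q | ∃ s hs, ih s hs = q}) t q then Classical.choose h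
    else (Bzero, 0)
  let F : T → RS := hwf.fix G
  have hFeq : ∀ t, F t = G t (fun s _ => F s) := fun t => hwf.fix_eq G t
  let Rt : T → Set RS := fun t => base ∪ {q | ∃ s, ∃ _ : r s t, F s = q}
  have hgood : ∀ t, Good (Rt t) t (F t) := by
    intro t
    induction t using hwf.induction with
    | _ t ih =>
      have hb : base ⊆ Rt t := subset_union_left
      have hbF : ∀ s, r s t → ∀ p ∈ base, OK p (F s) ∧ OK (F s) p := by
        intro s hst p hp
        exact (ih s hst).2.1 p (Or.inl hp)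
      have hval : ∀ p ∈ Rt t, ∀ q ∈ Rt t, OK p q := by
        rintro p (hp | ⟨s, hst, rfl⟩) q (hq | ⟨s', hst', rfl⟩)
        · exact ok_init p hp q hq
        · exact (hbF s' hst' p hp).1
        · exact (hbF s hst q hq).2
        · rcases trichotomous_of r s s' with h | h | h
          · exact ((ih s' hst').2.1 (F s) (Or.inr ⟨s, h, rfl⟩)).1
          · subst h
            exact (ih s hst).1
          · exact ((ih s hst).2.1 (F s') (Or.inr ⟨s', h, rfl⟩)).2
      have hsm : Cardinal.mk (Prod.fst '' (Rt t)) < Cardinal.continuum := by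
        have hsub : Prod.fst '' (Rt t) ⊆ (Prod.fst '' base) ∪
            (Set.range (fun s : {s : T // r s t} => (F s.1).1)) := by
          rintro _ ⟨q, (hq | ⟨s, hst, rfl⟩), rfl⟩
          · exact Or.inl ⟨q, hq, rfl⟩
          · exact Or.inr ⟨⟨s, hst⟩, rfl⟩
        have h1 : Cardinal.mk (Prod.fst '' base) < Cardinal.continuum := by
          have hfin : (Prod.fst '' base).Finite := (Set.toFinite _).image _
          exact lt_of_lt_of_le (Cardinal.lt_aleph0_iff_set_finite.2 hfin)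
            Cardinal.aleph0_le_continuum
        have h2 : Cardinal.mk (Set.range (fun s : {s : T // r s t} => (F s.1).1)) <
            Cardinal.continuum := lt_of_le_of_lt Cardinal.mk_range_le (hlt t)
        exact lt_of_le_of_lt (Cardinal.mk_le_mk_of_subset hsub)
          (lt_of_le_of_lt (Cardinal.mk_union_le _ _)
            (Cardinal.add_lt_of_lt Cardinal.aleph0_le_continuum h1 h2))
      obtain ⟨o, ho⟩ : ∃ o : Ordinal.{0}, ∀ p ∈ Rt t, p.2 < o := by
        have hbd : BddAbove (Set.range (fun s : {s : T // r s t} => (F s.1).2)) :=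
          Ordinal.bddAbove_of_small
        obtain ⟨o, ho⟩ := hbd
        refine ⟨Order.succ o, ?_⟩
        rintro p (hp | ⟨s, hst, rfl⟩)
        · rcases hp with rfl | rfl
          · exact Order.lt_succ_of_le zero_le
          · exact Order.lt_succ_of_le zero_le
        · exact Order.lt_succ_of_le (ho ⟨⟨s, hst⟩, rfl⟩)
      have hex : ∃ q, Good (base ∪ {q | ∃ s, ∃ _ : r s t, F s = q}) t q :=
        step hs (Rt t) hval (hb (Or.inl rfl)) hsm o ho t
      have : F t = Classical.choose hex := by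
        rw [hFeq t]
        simp only [G]
        rw [dif_pos hex]
      rw [this]
      exact Classical.choose_spec hex
  refine ⟨base ∪ Set.range F, Or.inl (Or.inl rfl), Or.inl (Or.inr rfl), ?_, ?_⟩
  · rintro p (hp | ⟨s, rfl⟩) q (hq | ⟨s', rfl⟩)
    · exact ok_init p hp q hq
    · exact ((hgood s').2.1 p (Or.inl hp)).1
    · exact ((hgood s).2.1 q (Or.inl hq)).2
    · rcases trichotomous_of r s s' with h | h | h
      · exact ((hgood s').2.1 (F s) (Or.inr ⟨s, h, rfl⟩)).1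
      · subst h
        exact (hgood s).1
      · exact ((hgood s).2.1 (F s') (Or.inr ⟨s', h, rfl⟩)).2
  · intro I X hIX
    have h := (hgood (I, X)).2.2 hIX
    refine h.mono ?_
    rintro q (rfl | hq | ⟨s, -, rfl⟩)
    · exact Or.inr ⟨(I, X), rfl⟩
    · exact Or.inl hq
    · exact Or.inr ⟨s, rfl⟩

end Vale.Agent.P068
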