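import Vale.Agent.P068.Chain

/-! The two direct sums of uniform matroids along the integer chain. -/

namespace Vale.Agent.P068

open Set

/-- The embedding of the two sides of the `i`-th block in the ground set. -/
def blk (i : ℤ) : ℕ ⊕ ℕ → ℤ × ℕ
  | Sum.inl n => if 1 ≤ i then (i - 1, n) else (i, n)
  | Sum.inr n => if 1 ≤ i then (i, n) else (i - 1, n)

/-- Blocks of one parity cover the ground set without overlap. -/
theorem blk_bijective (c : ℤ) :
    Function.Bijective (fun p : (_ : ℤ) × (ℕ ⊕ ℕ) => blk (2 * p.1 + c) p.2) := by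
  constructor
  · rintro ⟨j, x⟩ ⟨j', x'⟩ h
    rcases x with n | n <;> rcases x' with m | m <;> simp only [blk] at h <;>
      split_ifs at h <;> simp only [Prod.mk.injEq] at h <;> obtain ⟨h1, h2⟩ := h <;>
      first
        | (exfalso; omega)
        | (have hj : j = j' := by omega
           subst hj; subst h2; rfl)
  · rintro ⟨k, n⟩
    rcases Int.even_or_odd (k - c) with ⟨j, hj⟩ | ⟨j, hj⟩
    · -- block k
      by_cases h : 1 ≤ k
      · refine ⟨⟨j, Sum.inr n⟩, ?_⟩
        have e : 2 * j + c = k := by omega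
        simp only [blk, e, h, if_true]
      · refine ⟨⟨j, Sum.inl n⟩, ?_⟩
        have e : 2 * j + c = k := by omega
        simp only [blk, e, h, if_false]
    · -- block k + 1
      by_cases h : 1 ≤ k + 1
      · refine ⟨⟨j + 1, Sum.inl n⟩, ?_⟩
        have e : 2 * (j + 1) + c = k + 1 := by omega
        simp only [blk, e, h, if_true, add_sub_cancel_right]
      · refine ⟨⟨j + 1, Sum.inr n⟩, ?_⟩
        have e : 2 * (j + 1) + c = k + 1 := by omega
        simp only [blk, e, h, if_false, add_sub_cancel_right]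

/-- The bijection between blocks of one parity and the ground set. -/
noncomputable def blkEquiv (c : ℤ) : (_ : ℤ) × (ℕ ⊕ ℕ) ≃ ℤ × ℕ :=
  Equiv.ofBijective _ (blk_bijective c)

theorem blkEquiv_apply (c j : ℤ) (x : ℕ ⊕ ℕ) : blkEquiv c ⟨j, x⟩ = blk (2 * j + c) x := rfl

open Classical in
/-- The matroid of the `i`-th block. -/
noncomputable def W (U : Matroid (ℕ ⊕ ℕ)) (i : ℤ) : Matroid (ℕ ⊕ ℕ) :=
  if (1 ≤ i ∧ Even i) ∨ (i ≤ 0 ∧ Odd i) then U else U✶

/-- The direct sum of the blocks of one parity. -/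
noncomputable def big (U : Matroid (ℕ ⊕ ℕ)) (c : ℤ) : Matroid (ℤ × ℕ) :=
  (Matroid.sigma (fun j : ℤ => W U (2 * j + c))).mapEquiv (blkEquiv c)

variable {U : Matroid (ℕ ⊕ ℕ)}

theorem big_indep_iff (c : ℤ) (X : Set (ℤ × ℕ)) :
    (big U c).Indep X ↔ ∀ j : ℤ, (W U (2 * j + c)).Indep (blk (2 * j + c) ⁻¹' X) := by
  unfold big
  rw [Matroid.mapEquiv_indep_iff, Matroid.sigma_indep_iff]
  have : ∀ j : ℤ, Sigma.mk j ⁻¹' ((blkEquiv c).symm '' X) = blk (2 * j + c) ⁻¹' X := by
    intro j
    ext x
    rw [mem_preimage, mem_preimage]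
    constructor
    · rintro ⟨y, hy, hyx⟩
      have : y = blkEquiv c ⟨j, x⟩ := by rw [← hyx]; simp
      rw [← blkEquiv_apply, ← this]; exact hy
    · intro h
      exact ⟨blkEquiv c ⟨j, x⟩, h, by simp⟩
  simp only [this]

theorem W_E (hU : U.E = univ) (i : ℤ) : (W U i).E = univ := by
  unfold W
  split_ifs
  · exact hU
  · exact hU

theorem big_E (hU : U.E = univ) (c : ℤ) : (big U c).E = univ := by
  unfold big
  rw [Matroid.mapEquiv_ground_eq, Matroid.sigma_ground_eq]
  have : ∀ j : ℤ, (W U (2 * j + c)).E = univ := fun j => W_E hU _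
  simp only [this]
  rw [Set.eq_univ_iff_forall]
  intro p
  exact ⟨(blkEquiv c).symm p, by simp, by simp⟩

/-- A matroid in which every set is independent or spanning. -/
def Unif {α : Type*} (M : Matroid α) : Prop := ∀ X ⊆ M.E, M.Indep X ∨ M.Spanning X

theorem Unif.dual {α : Type*} {M : Matroid α} (h : Unif M) : Unif M✶ := by
  intro X hX
  rw [Matroid.dual_ground] at hX
  rcases h (M.E \ X) sdiff_subset with h1 | h1
  · right
    rw [Matroid.spanning_iff_compl_coindep (M := M✶) (by simpa using hX)]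
    rw [Matroid.dual_coindep_iff]
    exact h1
  · left
    rw [← Matroid.coindep_def, Matroid.coindep_iff_compl_spanning hX]
    exact h1

theorem Unif.W (h : Unif U) (i : ℤ) : Unif (W U i) := by
  unfold Vale.Agent.P068.W
  split_ifs
  · exact h
  · exact h.dual

theorem Unif.insert {α : Type*} {M : Matroid α} (h : Unif M) (hE : M.E = univ) {X : Set α}
    (hX : M.Indep X) (hs : ¬ M.Spanning X) (e : α) : M.Indep (Insert.insert e X) := by
  by_contra hcon
  have hsp := (h (Insert.insert e X) (by rw [hE]; exact subset_univ _)).resolve_left hcon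
  have he : e ∈ M.closure X := by
    rw [hX.mem_closure_iff']
    exact ⟨by rw [hE]; trivial, fun h' => absurd h' hcon⟩
  apply hs
  rw [Matroid.spanning_iff_closure_eq (by rw [hE]; exact subset_univ _)] at hsp ⊢
  rw [← hsp, Matroid.closure_insert_eq_of_mem_closure he]

/-- own index : parity class of the block -/
theorem parity_cases (i : ℤ) : (∃ j, i = 2 * j + 0) ∨ (∃ j, i = 2 * j + 1) := by
  rcases Int.even_or_odd i with ⟨j, hj⟩ | ⟨j, hj⟩
  · exact Or.inl ⟨j, by omega⟩
  · exact Or.inr ⟨j, by omega⟩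

theorem closure_block (hE : U.E = univ) (hU : Unif U) (c j : ℤ) {Y : Set (ℤ × ℕ)}
    (hY : (big U c).Indep Y)
    (hs : ¬ (W U (2 * j + c)).Spanning (blk (2 * j + c) ⁻¹' Y)) (x : ℕ ⊕ ℕ)
    (hx : blk (2 * j + c) x ∈ (big U c).closure Y) : blk (2 * j + c) x ∈ Y := by
  rw [hY.mem_closure_iff'] at hx
  apply hx.2
  rw [big_indep_iff] at hY ⊢
  intro j'
  by_cases hjj : j' = j
  · subst hjj
    have h1 : (W U (2 * j' + c)).Indep (Insert.insert x (blk (2 * j' + c) ⁻¹' Y)) :=
      (hU.W _).insert (W_E hE _) (hY j') hs x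
    refine h1.subset ?_
    intro y hy
    rcases hy with hy | hy
    · left
      have := (blk_bijective c).1 (a₁ := ⟨j', y⟩) (a₂ := ⟨j', x⟩) hy
      simpa using this
    · exact Or.inr hy
  · refine (hY j').subset ?_
    intro y hy
    rcases hy with hy | hy
    · exfalso
      have := (blk_bijective c).1 (a₁ := ⟨j', y⟩) (a₂ := ⟨j, x⟩) hy
      exact hjj (congrArg Sigma.fst this)
    · exact hy

/-- The intersection property for a pair of matroids. -/
def SatisfiesIntersection {β : Type*} (M N : Matroid β) : Prop :=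
  ∃ J JM JN : Set β, M.Indep J ∧ N.Indep J ∧ JM ∪ JN = J ∧ Disjoint JM JN ∧
    M.closure JM ∪ N.closure JN = M.E

/-- shared elements -/
theorem blk_next (i : ℤ) (n : ℕ) : ∃ x y, blk i x = (i, n) ∧ blk (i + 1) y = (i, n) := by
  rcases le_or_gt i 0 with h | h
  · rcases le_or_gt i (-1) with h' | h'
    · refine ⟨Sum.inl n, Sum.inr n, ?_, ?_⟩
      · have : ¬ 1 ≤ i := by omega
        simp [blk, this]
      · have : ¬ 1 ≤ i + 1 := by omega
        simp only [blk, this, if_false, add_sub_cancel_right]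
    · refine ⟨Sum.inl n, Sum.inl n, ?_, ?_⟩
      · have : ¬ 1 ≤ i := by omega
        simp [blk, this]
      · have : 1 ≤ i + 1 := by omega
        simp only [blk, this, if_true, add_sub_cancel_right]
  · refine ⟨Sum.inr n, Sum.inl n, ?_, ?_⟩
    · have : 1 ≤ i := by omega
      simp [blk, this]
    · have : 1 ≤ i + 1 := by omega
      simp only [blk, this, if_true, add_sub_cancel_right]

theorem no_intersection (D : UData (ℕ ⊕ ℕ)) (hD : ChainProps D) :
    ¬ SatisfiesIntersection (big D.matroid 0) (big D.matroid 1) := by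
  classical
  rintro ⟨J, JM, JN, hM, hN, hJ, hdisj, hcl⟩
  have hUE : D.matroid.E = univ := D.matroid_E
  have hUnif : Unif D.matroid := by
    intro X _
    rcases D.total X with h | h
    · exact Or.inl h
    · exact Or.inr (D.matroid_spanning_iff.2 h)
  have hJM : JM ⊆ J := by rw [← hJ]; exact subset_union_left
  have hJN : JN ⊆ J := by rw [← hJ]; exact subset_union_right
  -- own part
  let own : ℤ → Set (ℤ × ℕ) := fun i => if Even i then JM else JN
  have hownJ : ∀ i, own i ⊆ J := by
    intro i; simp only [own]; split_ifs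
    · exact hJM
    · exact hJN
  let σ : ℤ → Prop := fun i => (W D.matroid i).Spanning (blk i ⁻¹' (own i))
  have hA : ∀ i, (W D.matroid i).Indep (blk i ⁻¹' J) := by
    intro i
    rcases parity_cases i with ⟨j, rfl⟩ | ⟨j, rfl⟩
    · exact (big_indep_iff 0 J).1 hM j
    · exact (big_indep_iff 1 J).1 hN j
  have hB : ∀ i, σ i → blk i ⁻¹' J = blk i ⁻¹' (own i) := by
    intro i hi
    have hsub : blk i ⁻¹' (own i) ⊆ blk i ⁻¹' J := preimage_mono (hownJ i)
    have hbase : (W D.matroid i).IsBase (blk i ⁻¹' (own i)) :=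
      ((hA i).subset hsub).isBase_of_spanning hi
    exact (hbase.eq_of_subset_indep (hA i) hsub).symm
  -- closures
  have hC0 : ∀ i, Even i → ¬ σ i → ∀ x, blk i x ∈ (big D.matroid 0).closure JM → blk i x ∈ JM := by
    intro i hi hs x hx
    rcases parity_cases i with ⟨j, rfl⟩ | ⟨j, rfl⟩
    · refine closure_block hUE hUnif 0 j (hM.subset hJM) ?_ x hx
      intro hcon
      apply hs
      simp only [σ, own, hi, if_true]
      exact hcon
    · exfalso
      rcases hi with ⟨k, hk⟩; omega
  have hC1 : ∀ i, ¬ Even i → ¬ σ i → ∀ x, blk i x ∈ (big D.matroid 1).closure JN →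
      blk i x ∈ JN := by
    intro i hi hs x hx
    rcases parity_cases i with ⟨j, rfl⟩ | ⟨j, rfl⟩
    · exfalso
      exact hi ⟨j, by omega⟩
    · refine closure_block hUE hUnif 1 j (hN.subset hJN) ?_ x hx
      intro hcon
      apply hs
      simp only [σ, own, hi, if_false]
      exact hcon
  have hboth : ∀ i n, σ i → σ (i + 1) → (i, n) ∉ J := by
    intro i n h1 h2 hmem
    obtain ⟨x, y, hx, hy⟩ := blk_next i n
    have m1 : x ∈ blk i ⁻¹' J := by rw [mem_preimage, hx]; exact hmem
    have m2 : y ∈ blk (i + 1) ⁻¹' J := by rw [mem_preimage, hy]; exact hmem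
    rw [hB i h1, mem_preimage, hx] at m1
    rw [hB (i + 1) h2, mem_preimage, hy] at m2
    simp only [own] at m1 m2
    by_cases he : Even i
    · have ho : ¬ Even (i + 1) := by
        rw [Int.even_add_one]; exact not_not.2 he
      simp only [he, if_true] at m1
      simp only [ho, if_false] at m2
      exact (Set.disjoint_left.1 hdisj) m1 m2
    · have ho : Even (i + 1) := by
        rw [Int.even_add_one]; exact he
      simp only [he, if_false] at m1
      simp only [ho, if_true] at m2
      exact (Set.disjoint_left.1 hdisj) m2 m1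
  have hnone : ∀ i n, ¬ σ i → ¬ σ (i + 1) → (i, n) ∈ J := by
    intro i n h1 h2
    obtain ⟨x, y, hx, hy⟩ := blk_next i n
    have hm : ((i, n) : ℤ × ℕ) ∈ (big D.matroid 0).closure JM ∪ (big D.matroid 1).closure JN := by
      rw [hcl, big_E hUE]; trivial
    by_cases he : Even i
    · have ho : ¬ Even (i + 1) := by
        rw [Int.even_add_one]; exact not_not.2 he
      rcases hm with hm | hm
      · have := hC0 i he h1 x (by rw [hx]; exact hm)
        rw [hx] at this
        exact hJM this
      · have := hC1 (i + 1) ho h2 y (by rw [hy]; exact hm)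
        rw [hy] at this
        exact hJN this
    · have ho : Even (i + 1) := by
        rw [Int.even_add_one]; exact he
      rcases hm with hm | hm
      · have := hC0 (i + 1) ho h2 y (by rw [hy]; exact hm)
        rw [hy] at this
        exact hJM this
      · have := hC1 i he h1 x (by rw [hx]; exact hm)
        rw [hx] at this
        exact hJN this
  -- the assignment
  let z : ℤ → Set ℕ := fun i => if Even i then {n | (i, n) ∉ J} else {n | (i, n) ∈ J}
  let τ : ℤ → Prop := fun i => (Even i ∧ ¬ σ i) ∨ (¬ Even i ∧ σ i)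
  have hze : ∀ i, Even i → z i = {n | (i, n) ∉ J} := fun i hi => by simp only [z, hi, if_true]
  have hzo : ∀ i, ¬ Even i → z i = {n | (i, n) ∈ J} := fun i hi => by simp only [z, hi, if_false]
  have hodd : ∀ i : ℤ, ¬ Even i → Odd i := fun i hi => Int.not_even_iff_odd.1 hi
  have hnodd : ∀ i : ℤ, Even i → ¬ Odd i := fun i hi => Int.not_odd_iff_even.2 hi
  have hpred : ∀ i : ℤ, Even i → ¬ Even (i - 1) := by
    intro i hi h; rw [Int.even_sub_one] at h; exact h hi
  have hpred' : ∀ i : ℤ, ¬ Even i → Even (i - 1) := by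
    intro i hi; rw [Int.even_sub_one]; exact hi
  -- identification of traces
  have tr1 : ∀ i, 1 ≤ i → Even i → blk i ⁻¹' J = mk2 (z (i - 1)) (z i) := by
    intro i h1 he
    rw [← mk2_zs_ws (blk i ⁻¹' J), hze i he, hzo _ (hpred i he)]
    congr 1
    · ext n; simp [zs, blk, h1]
    · ext n; simp [ws, blk, h1]
  have tr2 : ∀ i, 1 ≤ i → ¬ Even i → (blk i ⁻¹' J)ᶜ = mk2 (z (i - 1)) (z i) := by
    intro i h1 he
    rw [← mk2_zs_ws (blk i ⁻¹' J)ᶜ, hzo i he, hze _ (hpred' i he)]
    congr 1
    · ext n; simp [zs, blk, h1]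
    · ext n; simp [ws, blk, h1]
  have tr3 : ∀ i, i ≤ 0 → Even i → (blk i ⁻¹' J)ᶜ = mk2 (z i) (z (i - 1)) := by
    intro i h1 he
    have h1' : ¬ 1 ≤ i := by omega
    rw [← mk2_zs_ws (blk i ⁻¹' J)ᶜ, hze i he, hzo _ (hpred i he)]
    congr 1
    · ext n; simp [zs, blk, h1']
    · ext n; simp [ws, blk, h1']
  have tr4 : ∀ i, i ≤ 0 → ¬ Even i → blk i ⁻¹' J = mk2 (z i) (z (i - 1)) := by
    intro i h1 he
    have h1' : ¬ 1 ≤ i := by omega
    rw [← mk2_zs_ws (blk i ⁻¹' J), hzo i he, hze _ (hpred' i he)]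
    congr 1
    · ext n; simp [zs, blk, h1']
    · ext n; simp [ws, blk, h1']
  have hsJ : ∀ i, σ i → (W D.matroid i).Spanning (blk i ⁻¹' J) := by
    intro i hi
    rw [hB i hi]; exact hi
  -- translations for the dual
  have dI : ∀ X : Set (ℕ ⊕ ℕ), D.matroid✶.Indep X → D.Sp Xᶜ := by
    intro X hX
    have h1 : D.matroid.Coindep X := hX
    rw [Matroid.coindep_iff_compl_spanning (by rw [hUE]; exact subset_univ _), hUE,
      ← compl_eq_univ_sdiff] at h1
    exact D.matroid_spanning_iff.1 h1
  have dS : ∀ X : Set (ℕ ⊕ ℕ), D.matroid✶.Spanning X → D.Ind Xᶜ := by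
    intro X hX
    rw [Matroid.spanning_iff_compl_coindep (M := D.matroid✶)
      (by rw [Matroid.dual_ground, hUE]; exact subset_univ _), Matroid.dual_coindep_iff,
      Matroid.dual_ground, hUE, ← compl_eq_univ_sdiff] at hX
    exact hX
  have wU : ∀ i, (1 ≤ i ∧ Even i) ∨ (i ≤ 0 ∧ Odd i) → W D.matroid i = D.matroid := by
    intro i h; unfold W; rw [if_pos h]
  have wD : ∀ i, ¬ ((1 ≤ i ∧ Even i) ∨ (i ≤ 0 ∧ Odd i)) → W D.matroid i = D.matroid✶ := by
    intro i h; unfold W; rw [if_neg h]
  -- the four relations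
  have r1 : ∀ i, 1 ≤ i → Even i → D.Ind (mk2 (z (i - 1)) (z i)) ∧
      (σ i → D.Sp (mk2 (z (i - 1)) (z i))) := by
    intro i h1 he
    have hw := wU i (Or.inl ⟨h1, he⟩)
    rw [← tr1 i h1 he]
    refine ⟨?_, fun hs => ?_⟩
    · have := hA i; rw [hw] at this; exact this
    · have := hsJ i hs; rw [hw] at this; exact D.matroid_spanning_iff.1 this
  have r2 : ∀ i, 1 ≤ i → ¬ Even i → D.Sp (mk2 (z (i - 1)) (z i)) ∧
      (σ i → D.Ind (mk2 (z (i - 1)) (z i))) := by
    intro i h1 he
    have hw := wD i (by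
      rintro (⟨-, h⟩ | ⟨h, -⟩)
      · exact he h
      · omega)
    rw [← tr2 i h1 he]
    refine ⟨?_, fun hs => ?_⟩
    · have := hA i; rw [hw] at this; exact dI _ this
    · have := hsJ i hs; rw [hw] at this; exact dS _ this
  have r3 : ∀ i, i ≤ 0 → Even i → D.Sp (mk2 (z i) (z (i - 1))) ∧
      (σ i → D.Ind (mk2 (z i) (z (i - 1)))) := by
    intro i h1 he
    have hw := wD i (by
      rintro (⟨h, -⟩ | ⟨-, h⟩)
      · omega
      · exact hnodd i he h)
    rw [← tr3 i h1 he]
    refine ⟨?_, fun hs => ?_⟩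
    · have := hA i; rw [hw] at this; exact dI _ this
    · have := hsJ i hs; rw [hw] at this; exact dS _ this
  have r4 : ∀ i, i ≤ 0 → ¬ Even i → D.Ind (mk2 (z i) (z (i - 1))) ∧
      (σ i → D.Sp (mk2 (z i) (z (i - 1)))) := by
    intro i h1 he
    have hw := wU i (Or.inr ⟨h1, hodd i he⟩)
    rw [← tr4 i h1 he]
    refine ⟨?_, fun hs => ?_⟩
    · have := hA i; rw [hw] at this; exact this
    · have := hsJ i hs; rw [hw] at this; exact D.matroid_spanning_iff.1 this
  refine hD.chain_false z τ ?_ ?_ ?_ ?_ ?_ ?_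
  · intro i h1 ht
    by_cases he : Even i
    · exact (r1 i h1 he).1
    · rcases ht with ht | ht
      · exact absurd ht.1 he
      · exact (r2 i h1 he).2 ht.2
  · intro i h1 ht
    by_cases he : Even i
    · refine (r1 i h1 he).2 ?_
      by_contra hs
      exact ht (Or.inl ⟨he, hs⟩)
    · exact (r2 i h1 he).1
  · intro i h1 ht
    by_cases he : Even i
    · exact (r3 i h1 he).1
    · rcases ht with ht | ht
      · exact absurd ht.1 he
      · exact (r4 i h1 he).2 ht.2
  · intro i h1 ht
    by_cases he : Even i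
    · refine (r3 i h1 he).2 ?_
      by_contra hs
      exact ht (Or.inl ⟨he, hs⟩)
    · exact (r4 i h1 he).1
  · intro i hn ht
    by_cases he : Even i
    · have hs : σ i := by
        by_contra hs; exact hn (Or.inl ⟨he, hs⟩)
      have ho : ¬ Even (i + 1) := by rw [Int.even_add_one]; exact not_not.2 he
      have hs' : σ (i + 1) := by
        rcases ht with ht | ht
        · exact absurd ht.1 ho
        · exact ht.2
      rw [hze i he, Set.eq_univ_iff_forall]
      intro n
      exact hboth i n hs hs'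
    · have hs : ¬ σ i := fun hs => hn (Or.inr ⟨he, hs⟩)
      have ho : Even (i + 1) := by rw [Int.even_add_one]; exact he
      have hs' : ¬ σ (i + 1) := by
        rcases ht with ht | ht
        · exact ht.2
        · exact absurd ho ht.1
      rw [hzo i he, Set.eq_univ_iff_forall]
      intro n
      exact hnone i n hs hs'
  · intro i ht hn
    by_cases he : Even i
    · have hs : ¬ σ i := by
        rcases ht with ht | ht
        · exact ht.2
        · exact absurd he ht.1
      have ho : ¬ Even (i + 1) := by rw [Int.even_add_one]; exact not_not.2 he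
      have hs' : ¬ σ (i + 1) := fun h => hn (Or.inr ⟨ho, h⟩)
      rw [hze i he, Set.eq_empty_iff_forall_notMem]
      intro n hn'
      exact hn' (hnone i n hs hs')
    · have hs : σ i := by
        rcases ht with ht | ht
        · exact absurd ht.1 he
        · exact ht.2
      have ho : Even (i + 1) := by rw [Int.even_add_one]; exact he
      have hs' : σ (i + 1) := by
        by_contra h; exact hn (Or.inl ⟨ho, h⟩)
      rw [hzo i he, Set.eq_empty_iff_forall_notMem]
      intro n hn'
      exact hboth i n hs hs' hn'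

end Vale.Agent.P068
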